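import Crest.Agent.R91.C0

/-!
Row 91: locations, regions and cell projections for one block.
-/

set_option autoImplicit false

open Real
open scoped InnerProductSpace

namespace Crest.Agent.R91

/-- scale -/
noncomputable def sc (t : ℝ) : ℝ := exp (64 * t)

/-- logarithmic size -/
noncomputable def uu (r : ℝ) : ℝ := log r / 64

/-- rescaled location coordinates -/
noncomputable def TT (l : ℕ) (q : ℕ → ℝ) (k : ℤ) (a : Fin l) : ℝ :=
  q a / (2 ^ (a : ℕ) * 64 * sc (k + 1))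

/-- the unit vector of a size and a location -/
noncomputable def xi (l : ℕ) (r : ℝ) (q : ℕ → ℝ) : L2 := xi0 (uu r) (TT l q)

/-- region of a cell, enlarged by `g` -/
def Reg (g : ℝ) (l τ : ℕ) (r : ℝ) (q : ℕ → ℝ) : Prop :=
  0 < r ∧ |uu r - (cell l τ).1| < g ∧ ∀ a, |TT l q (cell l τ).1 a - (cell l τ).2 a| < g

theorem sc_pos (t : ℝ) : 0 < sc t := exp_pos _

theorem sc_mono {s t : ℝ} (h : s ≤ t) : sc s ≤ sc t := exp_le_exp.2 (by linarith)

theorem sc_add (s t : ℝ) : sc (s + t) = sc s * sc t := by rw [sc, mul_add, exp_add]; rfl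

theorem sc_uu {r : ℝ} (h : 0 < r) : sc (uu r) = r := by
  rw [sc, uu, mul_div_cancel₀ _ (by norm_num), exp_log h]

theorem uu_lip {r r' d : ℝ} (h0 : 0 < r') (h1 : r' ≤ r) (h2 : r - r' ≤ d) :
    |uu r - uu r'| ≤ d / r' / 64 := by
  have h3 : log r - log r' ≤ d / r' := by
    rw [← log_div (by linarith) h0.ne']
    refine (log_le_sub_one_of_pos (div_pos (by linarith) h0)).trans ?_
    rw [div_sub_one h0.ne']
    gcongr
  have h4 := log_le_log h0 h1
  rw [uu, uu, ← sub_div, abs_of_nonneg (by linarith)]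
  linarith

theorem TT_sub (l : ℕ) (q q' : ℕ → ℝ) (k : ℤ) (a : Fin l) :
    |TT l q k a - TT l q' k a| = |q a - q' a| / (2 ^ (a : ℕ) * 64 * sc (k + 1)) := by
  rw [TT, TT, ← sub_div, abs_div, abs_of_pos (a := _ * _) (by have := sc_pos (k + 1); positivity)]

theorem norm_xi (l : ℕ) (r : ℝ) (q : ℕ → ℝ) : ‖xi l r q‖ = 1 := norm_xi0 _ _

theorem xi_lip (l : ℕ) {r r' d : ℝ} {q q' : ℕ → ℝ} (h0 : 0 ≤ r') (h1 : r' ≤ r) (h2 : r - r' ≤ d)
    (h3 : ∀ a, |q a - q' a| ≤ d) : ‖xi l r q - xi l r' q'‖ * r' ≤ d / 8 := by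
  have hd : 0 ≤ d := by linarith
  rcases h0.eq_or_lt with rfl | h0
  · rw [mul_zero]; positivity
  set e := d / r' / 64 with he
  have he0 : 0 ≤ e := by positivity
  have h4 := dist_xi0 (uu r) (uu r') (TT l q) (TT l q') (D := e ^ 2 * 2) (fun k hk => by
    have h5 : r' ≤ sc (k + 1) := by
      rw [← sc_uu h0]; exact sc_mono (by linarith [(abs_lt.1 (zt_ne hk)).2])
    have h6 : ∀ a : Fin l, (TT l q k a - TT l q' k a) ^ 2 ≤ e ^ 2 * (1 / 2) ^ (a : ℕ) := by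
      intro a
      have h7 : |TT l q k a - TT l q' k a| ≤ e * (1 / 2) ^ (a : ℕ) := by
        rw [TT_sub]
        calc _ ≤ d / (2 ^ (a : ℕ) * 64 * r') := by gcongr; exact h3 a
          _ = _ := by rw [he, one_div, inv_pow]; field_simp
      have h8 : ((1 / 2 : ℝ)) ^ (a : ℕ) ≤ 1 := pow_le_one₀ (by norm_num) (by norm_num)
      have h9 := pow_le_pow_left₀ (abs_nonneg _) h7 2
      rw [sq_abs, mul_pow] at h9
      refine h9.trans (mul_le_mul_of_nonneg_left ?_ (sq_nonneg _))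
      nlinarith [pow_pos (show (0 : ℝ) < 1 / 2 by norm_num) (a : ℕ)]
    refine (Finset.sum_le_sum fun a _ => h6 a).trans ?_
    rw [← Finset.mul_sum, Fin.sum_univ_eq_sum_range (fun a => (1 / 2 : ℝ) ^ a)]
    exact mul_le_mul_of_nonneg_left (sum_geometric_two_le l) (sq_nonneg _)) (by positivity)
  have h5 := pow_le_pow_left₀ (abs_nonneg _) (uu_lip h0 h1 h2) 2
  rw [sq_abs] at h5
  have h6 : ‖xi l r q - xi l r' q'‖ ≤ 8 * e :=
    (pow_le_pow_iff_left₀ (norm_nonneg _) (by positivity) two_ne_zero).1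
      (by unfold xi; nlinarith [sq_nonneg e])
  calc _ ≤ 8 * e * r' := by gcongr
    _ = d / 8 := by rw [he]; field_simp; ring

theorem Reg.mono {g g' : ℝ} {l τ : ℕ} {r : ℝ} {q : ℕ → ℝ} (h : Reg g l τ r q) (hg : g ≤ g') :
    Reg g' l τ r q :=
  ⟨h.1, h.2.1.trans_le hg, fun a => (h.2.2 a).trans_le hg⟩

theorem Reg.upper {g : ℝ} {l τ : ℕ} {r : ℝ} {q : ℕ → ℝ} (h : Reg g l τ r q) :
    r ≤ sc ((cell l τ).1 + g) := by
  rw [← sc_uu h.1]; exact sc_mono (by linarith [(abs_lt.1 h.2.1).2])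

theorem Reg.lower {g : ℝ} {l τ : ℕ} {r : ℝ} {q : ℕ → ℝ} (h : Reg g l τ r q) :
    sc ((cell l τ).1 - g) ≤ r := by
  rw [← sc_uu h.1]; exact sc_mono (by linarith [(abs_lt.1 h.2.1).1])

theorem Reg.margin {g : ℝ} {l τ : ℕ} {r r' d : ℝ} {q q' : ℕ → ℝ} (h : Reg g l τ r q)
    (h2 : |r - r'| ≤ d) (h3 : ∀ a, |q a - q' a| ≤ d) (hd : d ≤ sc ((cell l τ).1 - g) / 2) :
    Reg (g + 1) l τ r' q' := by
  have hg : 0 < g := (abs_nonneg _).trans_lt h.2.1
  have h4 := h.lower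
  have h5 := sc_pos ((cell l τ).1 - g)
  obtain ⟨h6, h7⟩ := abs_le.1 h2
  have h8 : 0 < r' := by linarith
  have h9 : |uu r - uu r'| ≤ 1 := by
    rcases le_total r' r with hr | hr
    · refine (uu_lip h8 hr h7).trans ?_
      have : d / r' ≤ 1 := by rw [div_le_one h8]; linarith
      linarith
    · rw [abs_sub_comm]
      refine (uu_lip h.1 hr (d := d) (by linarith)).trans ?_
      have : d / r ≤ 1 := by rw [div_le_one h.1]; linarith
      linarith
  refine ⟨h8, ?_, fun a => ?_⟩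
  · linarith [abs_sub_le (uu r') (uu r) ((cell l τ).1), abs_sub_comm (uu r) (uu r'), h.2.1]
  · have h10 : |TT l q' (cell l τ).1 a - TT l q (cell l τ).1 a| ≤ 1 := by
      have h11 := sc_mono (show (cell l τ).1 - g ≤ (cell l τ).1 + 1 by linarith)
      have h12 : (1 : ℝ) ≤ 2 ^ (a : ℕ) := one_le_pow₀ (by norm_num)
      rw [TT_sub, div_le_one (by have := sc_pos ((cell l τ).1 + 1); positivity), abs_sub_comm]
      nlinarith [h3 a]
    linarith [abs_sub_le (TT l q' (cell l τ).1 a) (TT l q (cell l τ).1 a) ((cell l τ).2 a),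
      h.2.2 a]

theorem Reg.close {g : ℝ} {l τ : ℕ} {r r' : ℝ} {q q' : ℕ → ℝ} (h : Reg g l τ r q)
    (h' : Reg g l τ r' q') {a : ℕ} (ha : a < l) :
    |q a - q' a| ≤ 2 * g * (2 ^ a * 64 * sc ((cell l τ).1 + 1)) := by
  have h1 := TT_sub l q q' (cell l τ).1 ⟨a, ha⟩
  have h2 := abs_sub_le (TT l q (cell l τ).1 ⟨a, ha⟩) ((cell l τ).2 ⟨a, ha⟩)
    (TT l q' (cell l τ).1 ⟨a, ha⟩)
  rw [abs_sub_comm (((cell l τ).2 ⟨a, ha⟩ : ℤ) : ℝ), h1] at h2
  rw [← div_le_iff₀ (by have := sc_pos ((cell l τ).1 + 1); positivity)]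
  linarith [h.2.2 ⟨a, ha⟩, h'.2.2 ⟨a, ha⟩]

theorem reg_finite (g : ℝ) (l τ : ℕ) :
    {τ' | ∃ r q, Reg g l τ r q ∧ Reg g l τ' r q}.Finite := by
  obtain ⟨R, hR⟩ := exists_nat_ge (2 * g)
  choose N hN using fun a : Fin l =>
    exists_nat_ge (g + (|((cell l τ).2 a : ℝ)| + g) * sc (2 * g))
  refine (((Set.finite_Icc ((cell l τ).1 - R) ((cell l τ).1 + R)).prod
    (Set.Finite.pi' fun a => Set.finite_Icc (-(N a : ℤ)) (N a))).preimage
      (cell l).injective.injOn).subset ?_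
  rintro τ' ⟨r, q, h, h'⟩
  obtain ⟨a1, a2⟩ := abs_lt.1 h.2.1
  obtain ⟨a3, a4⟩ := abs_lt.1 h'.2.1
  refine ⟨⟨?_, ?_⟩, fun a => ?_⟩
  · exact_mod_cast (show ((cell l τ).1 : ℝ) - R ≤ (cell l τ').1 by linarith)
  · exact_mod_cast (show ((cell l τ').1 : ℝ) ≤ (cell l τ).1 + R by linarith)
  · have e : TT l q (cell l τ').1 a =
        TT l q (cell l τ).1 a * sc ((cell l τ).1 - (cell l τ').1) := by
      have := sc_add ((cell l τ').1 + 1) ((cell l τ).1 - (cell l τ').1)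
      rw [show ((cell l τ').1 : ℝ) + 1 + ((cell l τ).1 - (cell l τ').1) = (cell l τ).1 + 1 by ring]
        at this
      have h1 := sc_pos ((cell l τ').1 + 1)
      have h2 := sc_pos ((cell l τ).1 - (cell l τ').1)
      rw [TT, TT, this]
      field_simp
    have b1 : |TT l q (cell l τ).1 a| ≤ |((cell l τ).2 a : ℝ)| + g := by
      linarith [abs_sub_abs_le_abs_sub (TT l q (cell l τ).1 a) ((cell l τ).2 a), h.2.2 a]
    have b2 : |TT l q (cell l τ').1 a| ≤ (|((cell l τ).2 a : ℝ)| + g) * sc (2 * g) := by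
      rw [e, abs_mul, abs_of_pos (sc_pos _)]
      exact mul_le_mul b1 (sc_mono (by linarith)) (sc_pos _).le ((abs_nonneg _).trans b1)
    have b3 : |((cell l τ').2 a : ℝ)| ≤ N a := by
      linarith [abs_sub_abs_le_abs_sub ((cell l τ').2 a : ℝ) (TT l q (cell l τ').1 a),
        abs_sub_comm ((cell l τ').2 a : ℝ) (TT l q (cell l τ').1 a), h'.2.2 a, hN a]
    exact_mod_cast abs_le.1 b3

/-- neighbouring cells of the same scale -/
def near (l τ : ℕ) : Set ℕ :=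
  {c | (cell l c).1 = (cell l τ).1 ∧ ∀ a, |((cell l c).2 a : ℝ) - (cell l τ).2 a| ≤ 1}

theorem xi_ne {l : ℕ} {r : ℝ} {q : ℕ → ℝ} {c : ℕ} (h : xi l r q c ≠ 0) :
    zt (cell l c).1 (uu r) ≠ 0 ∧ ∀ a, zt ((cell l c).2 a) (TT l q (cell l c).1 a) ≠ 0 :=
  ⟨left_ne_zero_of_mul h, fun a =>
    Finset.prod_ne_zero_iff.1 (right_ne_zero_of_mul h) a (Finset.mem_univ _)⟩

theorem reg_of_near {l τ : ℕ} {r : ℝ} {q : ℕ → ℝ} {c : ℕ} (hr : 0 < r) (h : xi l r q c ≠ 0)
    (hc : c ∈ near l τ) : Reg 2 l τ r q := by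
  obtain ⟨h1, h2⟩ := xi_ne h
  rw [hc.1] at h1 h2
  refine ⟨hr, by linarith [zt_ne h1], fun a => ?_⟩
  linarith [zt_ne (h2 a), hc.2 a,
    abs_sub_le (TT l q (cell l τ).1 a) ((cell l c).2 a) ((cell l τ).2 a)]

theorem exists_near (l : ℕ) (r : ℝ) (q : ℕ → ℝ) :
    ∃ τ τ', ∀ c, xi l r q c ≠ 0 → c ∈ near l τ ∪ near l τ' := by
  have key : ∀ (k : ℤ) (c : ℕ), xi l r q c ≠ 0 → (cell l c).1 = k →
      c ∈ near l ((cell l).symm (k, fun a => ⌊TT l q k a⌋)) := fun k c h hk => by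
    refine ⟨by simpa using hk, fun a => ?_⟩
    have := mem_JJ ((xi_ne h).2 a)
    rw [hk] at this
    simp only [JJ, Finset.mem_insert, Finset.mem_singleton] at this
    rcases this with h1 | h1 <;> simp [h1]
  exact ⟨_, _, fun c h => (Finset.mem_insert.1 (mem_JJ (xi_ne h).1)).imp (key _ c h)
    fun h1 => key _ c h (Finset.mem_singleton.1 h1)⟩

variable {K : Type} [NormedAddCommGroup K]

open Classical in
/-- restriction to a set of cells -/
noncomputable def proj (A : Set ℕ) (u : LE K) : LE K :=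
  ⟨fun c => if c ∈ A then u c else 0, (memL_iff _).2
    ((hasSum_sq u).summable.of_nonneg_of_le (fun _ => sq_nonneg _) fun c => by
      split_ifs <;> simp)⟩

open Classical in
theorem proj_apply (A : Set ℕ) (u : LE K) (c : ℕ) : proj A u c = if c ∈ A then u c else 0 := rfl

theorem norm_le_of_apply {u v : LE K} (h : ∀ c, ‖u c‖ ≤ ‖v c‖) : ‖u‖ ≤ ‖v‖ :=
  (pow_le_pow_iff_left₀ (norm_nonneg _) (norm_nonneg _) two_ne_zero).1
    (hasSum_le (fun c => pow_le_pow_left₀ (norm_nonneg _) (h c) 2) (hasSum_sq u) (hasSum_sq v))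

theorem norm_proj_le (A : Set ℕ) (u : LE K) : ‖proj A u‖ ≤ ‖u‖ :=
  norm_le_of_apply fun c => by rw [proj_apply]; split_ifs <;> simp

theorem norm_proj_union (A B : Set ℕ) (u : LE K) :
    ‖proj (A ∪ B) u‖ ≤ ‖proj A u‖ + ‖proj B u‖ := by
  have e : proj (A ∪ B) u = proj A u + proj Aᶜ (proj B u) := by
    refine lp.ext (funext fun c => ?_)
    by_cases hA : c ∈ A <;> by_cases hB : c ∈ B <;> simp [proj_apply, hA, hB]
  rw [e]
  exact (norm_add_le _ _).trans (add_le_add_right (norm_proj_le _ _) _)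

variable [InnerProductSpace ℝ K]

theorem inner_proj (A : Set ℕ) (u y : LE K) : ⟪proj A u, y⟫_ℝ = ⟪u, proj A y⟫_ℝ := by
  rw [lp.inner_eq_tsum, lp.inner_eq_tsum]
  refine tsum_congr fun c => ?_
  rw [proj_apply, proj_apply]
  split_ifs <;> simp

theorem inner_proj_self (A : Set ℕ) (u : LE K) : ⟪proj A u, u⟫_ℝ = ‖proj A u‖ ^ 2 := by
  rw [← real_inner_self_eq_norm_sq, lp.inner_eq_tsum, lp.inner_eq_tsum]
  refine tsum_congr fun c => ?_
  rw [proj_apply]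
  split_ifs <;> simp

theorem inner_le_of_supp {A : Set ℕ} (u : LE K) {y : LE K} (h : ∀ c, y c ≠ 0 → c ∈ A) :
    |⟪u, y⟫_ℝ| ≤ ‖proj A u‖ * ‖y‖ := by
  have e : proj A y = y := lp.ext (funext fun c => by
    rw [proj_apply]
    split_ifs with hc
    exacts [rfl, (by_contra fun hy => hc (h c (Ne.symm hy)))])
  calc |⟪u, y⟫_ℝ| = |⟪proj A u, y⟫_ℝ| := by rw [inner_proj, e]
    _ ≤ _ := abs_real_inner_le_norm _ _

end Crest.Agent.R91
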