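import Crest.Agent.R91.Cells

/-!
Row 91: basic facts on `c₀(V)` and separability.
-/

set_option autoImplicit false

open Filter Topology TopologicalSpace

namespace Crest.Agent.R91

/-- null sequences -/
abbrev C0 (V : Type) [NormedAddCommGroup V] : Type := ZeroAtInftyContinuousMap ℕ V

variable {V : Type} [NormedAddCommGroup V]

theorem cocompact_nat : cocompact ℕ = atTop := by
  rw [cocompact_eq_cofinite, Nat.cofinite_eq_atTop]

/-- build a null sequence -/
def c0mk (f : ℕ → V) (h : Tendsto f atTop (𝓝 0)) : C0 V :=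
  ⟨⟨f, continuous_of_discreteTopology⟩, by rwa [cocompact_nat]⟩

@[simp] theorem c0mk_apply (f : ℕ → V) (h : Tendsto f atTop (𝓝 0)) (n : ℕ) : c0mk f h n = f n :=
  rfl

theorem c0_tendsto (x : C0 V) : Tendsto x atTop (𝓝 0) := by
  rw [← cocompact_nat]; exact x.zero_at_infty'

theorem c0_apply_le (x : C0 V) (n : ℕ) : ‖x n‖ ≤ ‖x‖ := x.toBCF.norm_coe_le_norm n

theorem c0_norm_le (x : C0 V) {C : ℝ} (hC : 0 ≤ C) (h : ∀ n, ‖x n‖ ≤ C) : ‖x‖ ≤ C :=
  (BoundedContinuousFunction.norm_le (f := x.toBCF) hC).2 h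

theorem c0_sub_le (x y : C0 V) (n : ℕ) : ‖x n - y n‖ ≤ dist x y := by
  rw [dist_eq_norm]; exact c0_apply_le (x - y) n

theorem c0_dist_le (x y : C0 V) {C : ℝ} (hC : 0 ≤ C) (h : ∀ n, ‖x n - y n‖ ≤ C) :
    dist x y ≤ C := by
  rw [dist_eq_norm]; exact c0_norm_le (x - y) hC h

theorem c0_small (x : C0 V) {ε : ℝ} (hε : 0 < ε) : ∀ᶠ n in atTop, ‖x n‖ ≤ ε :=
  (tendsto_zero_iff_norm_tendsto_zero.1 (c0_tendsto x)).eventually_le_const hε

/-- truncation after block `l` -/
def trunc (l : ℕ) (x : C0 V) : C0 V :=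
  c0mk (fun n => if n ≤ l then x n else 0) (tendsto_const_nhds.congr'
    ((eventually_gt_atTop l).mono fun _ hn => (if_neg (not_le.2 hn)).symm))

theorem trunc_of_le {l n : ℕ} (h : n ≤ l) (x : C0 V) : trunc l x n = x n := if_pos h

theorem dist_trunc (l : ℕ) (x y : C0 V) : dist (trunc l x) (trunc l y) ≤ dist x y :=
  c0_dist_le _ _ dist_nonneg fun n => by
    simp only [trunc, c0mk_apply]
    split_ifs
    exacts [c0_sub_le x y n, by simp]

theorem trunc_congr {l : ℕ} {x y : C0 V} (h : ∀ n ≤ l, x n = y n) : trunc l x = trunc l y := by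
  ext n
  simp only [trunc, c0mk_apply]
  split_ifs with hn
  exacts [h n hn, rfl]

/-- one nonzero entry -/
def sgl (i : ℕ) (v : V) : C0 V :=
  c0mk (fun n => if n = i then v else 0) (tendsto_const_nhds.congr'
    ((eventually_gt_atTop i).mono fun _ hn => (if_neg hn.ne').symm))

theorem sgl_apply (i : ℕ) (v : V) (n : ℕ) : sgl i v n = if n = i then v else 0 := rfl

theorem norm_sgl (i : ℕ) (v : V) : ‖sgl i v‖ = ‖v‖ :=
  le_antisymm (c0_norm_le _ (norm_nonneg _) fun n => by
    rw [sgl_apply]; split_ifs <;> simp) (by simpa [sgl_apply] using c0_apply_le (sgl i v) i)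

theorem c0_sum_apply {ι : Type*} (s : Finset ι) (f : ι → C0 V) (n : ℕ) :
    (∑ i ∈ s, f i) n = ∑ i ∈ s, f i n := by
  classical
  induction s using Finset.induction_on with
  | empty => rfl
  | insert a s ha ih => rw [Finset.sum_insert ha, Finset.sum_insert ha, ← ih]; rfl

theorem separable_of_span {W : Type*} [NormedAddCommGroup W] [NormedSpace ℝ W] {S : Set W}
    (hS : IsSeparable S) (h : ∀ x, x ∈ closure (Submodule.span ℝ S : Set W)) :
    SeparableSpace W :=
  isSeparable_univ_iff.1 ((hS.span (R := ℝ)).closure.mono fun x _ => h x)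

variable [NormedSpace ℝ V] [SeparableSpace V]

instance separable_LE : SeparableSpace (LE V) := by
  refine separable_of_span (S := ⋃ n, Set.range (lp.single (E := fun _ : ℕ => V) 2 n))
    (IsSeparable.iUnion fun n => isSeparable_range (lp.isometry_single n).continuous) fun x => ?_
  refine mem_closure_of_tendsto (lp.hasSum_single (by norm_num) x) (Eventually.of_forall fun s => ?_)
  exact Submodule.sum_mem _ fun n _ => Submodule.subset_span (Set.mem_iUnion.2 ⟨n, _, rfl⟩)

instance separable_C0 : SeparableSpace (C0 V) := by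
  have hc : ∀ n, Continuous (sgl (V := V) n) := fun n =>
    (LipschitzWith.of_dist_le_mul (K := 1) fun a b => by
      refine c0_dist_le _ _ (by positivity) fun m => ?_
      rw [sgl_apply, sgl_apply]
      split_ifs <;> simp [dist_eq_norm]).continuous
  refine separable_of_span (S := ⋃ n, Set.range (sgl (V := V) n))
    (IsSeparable.iUnion fun n => isSeparable_range (hc n)) fun x => ?_
  refine Metric.mem_closure_iff.2 fun ε hε => ?_
  obtain ⟨N, hN⟩ := eventually_atTop.1 (c0_small x (half_pos hε))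
  refine ⟨∑ n ∈ Finset.range N, sgl n (x n), Submodule.sum_mem _ fun n _ =>
    Submodule.subset_span (Set.mem_iUnion.2 ⟨n, _, rfl⟩), ?_⟩
  refine (c0_dist_le _ _ (half_pos hε).le fun m => ?_).trans_lt (half_lt_self hε)
  simp only [c0_sum_apply, sgl_apply, Finset.sum_ite_eq, Finset.mem_range]
  split_ifs with hm
  · simpa using (half_pos hε).le
  · simpa using hN m (not_lt.1 hm)

end Crest.Agent.R91
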