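import Crest.Agent.R91.Hotel

/-!
Row 91: an `ℓ²` partition of unity into cells.
-/

set_option autoImplicit false

open Real

namespace Crest.Agent.R91

/-- square root partition of unity on the line -/
noncomputable def zt (n : ℤ) (t : ℝ) : ℝ := sin (π / 2 * max (1 - |t - n|) 0)

/-- the two active indices -/
noncomputable def JJ (t : ℝ) : Finset ℤ := {⌊t⌋, ⌊t⌋ + 1}

theorem zt_nonneg (n : ℤ) (t : ℝ) : 0 ≤ zt n t := by
  have h1 : max (1 - |t - n|) 0 ≤ 1 := max_le (by linarith [abs_nonneg (t - n)]) zero_le_one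
  have h2 : 0 ≤ max (1 - |t - n|) 0 := le_max_right _ _
  exact sin_nonneg_of_nonneg_of_le_pi (by positivity) (by nlinarith [pi_pos])

theorem zt_ne {n : ℤ} {t : ℝ} (h : zt n t ≠ 0) : |t - n| < 1 := by
  by_contra hc
  exact h (by rw [zt, max_eq_right (by linarith), mul_zero, sin_zero])

theorem mem_JJ {n : ℤ} {t : ℝ} (h : zt n t ≠ 0) : n ∈ JJ t := by
  obtain ⟨h1, h2⟩ := abs_lt.1 (zt_ne h)
  have h3 : (⌊t⌋ : ℝ) - 1 < n := by linarith [Int.floor_le t]
  have h4 : (n : ℝ) < ⌊t⌋ + 2 := by linarith [Int.lt_floor_add_one t]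
  have h5 : ⌊t⌋ - 1 < n := by exact_mod_cast h3
  have h6 : n < ⌊t⌋ + 2 := by exact_mod_cast h4
  simp only [JJ, Finset.mem_insert, Finset.mem_singleton]
  omega

theorem zt_lip (n : ℤ) (t t' : ℝ) : |zt n t - zt n t'| ≤ 2 * |t - t'| := by
  refine (abs_sin_sub_sin_le _ _).trans ?_
  rw [← mul_sub, abs_mul, abs_of_pos (by positivity : 0 < π / 2)]
  have h1 := abs_max_sub_max_le_abs (1 - |t - n|) (1 - |t' - n|) 0
  have h2 := abs_abs_sub_abs_le_abs_sub (t' - n) (t - n)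
  rw [sub_sub_sub_cancel_left] at h1
  rw [sub_sub_sub_cancel_right, abs_sub_comm t' t] at h2
  exact mul_le_mul (by linarith [pi_le_four]) (h1.trans h2) (abs_nonneg _) (by norm_num)

/-- overlap of two points -/
noncomputable def bt (t t' : ℝ) : ℝ := ∑ n ∈ JJ t, zt n t * zt n t'

theorem sum_eq_bt {t : ℝ} (t' : ℝ) {s : Finset ℤ} (h : JJ t ⊆ s) :
    ∑ n ∈ s, zt n t * zt n t' = bt t t' :=
  (Finset.sum_subset h fun n _ hn => by
    rw [show zt n t = 0 from by_contra fun hc => hn (mem_JJ hc), zero_mul]).symm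

theorem bt_self (t : ℝ) : bt t t = 1 := by
  have h0 := Int.floor_le t
  have h1 := Int.lt_floor_add_one t
  rw [bt, JJ, Finset.sum_pair (by omega), zt, zt, abs_of_nonneg (by linarith),
    abs_of_nonpos (by push_cast; linarith), max_eq_left (by linarith),
    max_eq_left (by push_cast; linarith)]
  have e : π / 2 * (1 - (t - ⌊t⌋)) = π / 2 - π / 2 * (1 - -(t - ((⌊t⌋ + 1 : ℤ) : ℝ))) := by
    push_cast; ring
  rw [e, sin_pi_div_two_sub]
  nlinarith [sin_sq_add_cos_sq (π / 2 * (1 - -(t - ((⌊t⌋ + 1 : ℤ) : ℝ))))]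

theorem bt_nonneg (t t' : ℝ) : 0 ≤ bt t t' :=
  Finset.sum_nonneg fun _ _ => mul_nonneg (zt_nonneg _ _) (zt_nonneg _ _)

theorem bt_eq (t t' : ℝ) :
    ∑ n ∈ JJ t ∪ JJ t', (zt n t - zt n t') ^ 2 = 2 - 2 * bt t t' := by
  have h1 := sum_eq_bt t (Finset.subset_union_left (s₁ := JJ t) (s₂ := JJ t'))
  have h2 := sum_eq_bt t' (Finset.subset_union_right (s₁ := JJ t) (s₂ := JJ t'))
  have h3 := sum_eq_bt t' (Finset.subset_union_left (s₁ := JJ t) (s₂ := JJ t'))
  rw [bt_self] at h1 h2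
  have e : ∑ n ∈ JJ t ∪ JJ t', (zt n t - zt n t') ^ 2 = ∑ n ∈ JJ t ∪ JJ t', zt n t * zt n t +
      ∑ n ∈ JJ t ∪ JJ t', zt n t' * zt n t' - 2 * ∑ n ∈ JJ t ∪ JJ t', zt n t * zt n t' := by
    rw [Finset.mul_sum, ← Finset.sum_add_distrib, ← Finset.sum_sub_distrib]
    exact Finset.sum_congr rfl fun n _ => by ring
  rw [e, h1, h2, h3]
  ring

theorem bt_le_one (t t' : ℝ) : bt t t' ≤ 1 := by
  have := Finset.sum_nonneg fun n (_ : n ∈ JJ t ∪ JJ t') => sq_nonneg (zt n t - zt n t')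
  linarith [bt_eq t t']

theorem bt_ge (t t' : ℝ) : 1 - 8 * (t - t') ^ 2 ≤ bt t t' := by
  have h1 : (JJ t ∪ JJ t').card ≤ 4 :=
    (Finset.card_union_le _ _).trans (add_le_add Finset.card_le_two Finset.card_le_two)
  have h2 := Finset.sum_le_card_nsmul (JJ t ∪ JJ t') (fun n => (zt n t - zt n t') ^ 2)
    (4 * (t - t') ^ 2) fun n _ => by
      have := pow_le_pow_left₀ (abs_nonneg _) (zt_lip n t t') 2
      rwa [sq_abs, mul_pow, sq_abs, show (2 : ℝ) ^ 2 = 4 by norm_num] at this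
  rw [bt_eq, nsmul_eq_mul] at h2
  have h3 : ((JJ t ∪ JJ t').card : ℝ) ≤ 4 := by exact_mod_cast h1
  nlinarith [sq_nonneg (t - t')]

theorem one_sub_sum_le_prod {ι : Type*} (s : Finset ι) (b : ι → ℝ) (h0 : ∀ i, 0 ≤ b i)
    (h1 : ∀ i, b i ≤ 1) : 1 - ∑ i ∈ s, (1 - b i) ≤ ∏ i ∈ s, b i := by
  classical
  induction s using Finset.induction_on with
  | empty => simp
  | insert a s ha ih =>
    rw [Finset.sum_insert ha, Finset.prod_insert ha]
    have h2 : 0 ≤ ∑ i ∈ s, (1 - b i) := Finset.sum_nonneg fun i _ => sub_nonneg.2 (h1 i)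
    nlinarith [h0 a, h1 a]

/-- cells at block `l` -/
abbrev Cell (l : ℕ) : Type := ℤ × (Fin l → ℤ)

/-- coefficients of the partition -/
noncomputable def coef {l : ℕ} (u : ℝ) (T : ℤ → Fin l → ℝ) (c : Cell l) : ℝ :=
  zt c.1 u * ∏ a, zt (c.2 a) (T c.1 a)

theorem hasSum_coef {l : ℕ} (u u' : ℝ) (T T' : ℤ → Fin l → ℝ) :
    HasSum (fun c => coef u T c * coef u' T' c)
      (∑ k ∈ JJ u, zt k u * zt k u' * ∏ a, bt (T k a) (T' k a)) := by
  let s : Fin l → Finset ℤ := fun a => (JJ u).biUnion fun k => JJ (T k a)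
  have h := hasSum_sum_of_ne_finset_zero (L := SummationFilter.unconditional _)
    (f := fun c => coef u T c * coef u' T' c) (s := JJ u ×ˢ Fintype.piFinset s) fun c hc => by
      by_contra hne
      have h1 : coef u T c ≠ 0 := left_ne_zero_of_mul hne
      have h2 := mem_JJ (left_ne_zero_of_mul h1)
      refine hc (Finset.mem_product.2 ⟨h2, Fintype.mem_piFinset.2 fun a => ?_⟩)
      exact Finset.mem_biUnion.2 ⟨c.1, h2, mem_JJ
        (Finset.prod_ne_zero_iff.1 (right_ne_zero_of_mul h1) a (Finset.mem_univ _))⟩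
  convert h using 1
  rw [Finset.sum_product]
  refine Finset.sum_congr rfl fun k hk => ?_
  rw [Finset.prod_congr rfl fun a _ => (sum_eq_bt (s := s a) (T' k a)
    (Finset.subset_biUnion_of_mem (fun k => JJ (T k a)) hk)).symm, Finset.prod_univ_sum,
    Finset.mul_sum]
  refine Finset.sum_congr rfl fun n _ => ?_
  rw [coef, coef, Finset.prod_mul_distrib]
  ring

theorem hasSum_coef_self {l : ℕ} (u : ℝ) (T : ℤ → Fin l → ℝ) :
    HasSum (fun c => coef u T c * coef u T c) 1 := by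
  convert hasSum_coef u u T T using 1
  simp only [bt_self, Finset.prod_const_one, mul_one]
  exact (bt_self u).symm

/-- enumeration of the cells -/
noncomputable def cell (l : ℕ) : ℕ ≃ Cell l := Classical.choice nonempty_equiv_of_countable

/-- the unit vector of a location -/
noncomputable def xi0 {l : ℕ} (u : ℝ) (T : ℤ → Fin l → ℝ) : L2 :=
  ⟨fun n => coef u T (cell l n), (memL_iff _).2 (by
    simpa only [Real.norm_eq_abs, sq, abs_mul_abs_self, Function.comp_def] using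
      ((cell l).hasSum_iff.2 (hasSum_coef_self u T)).summable)⟩

theorem xi0_apply {l : ℕ} (u : ℝ) (T : ℤ → Fin l → ℝ) (n : ℕ) :
    xi0 u T n = coef u T (cell l n) := rfl

theorem norm_xi0 {l : ℕ} (u : ℝ) (T : ℤ → Fin l → ℝ) : ‖xi0 u T‖ = 1 := by
  have h1 := hasSum_sq (xi0 u T)
  have h2 := (cell l).hasSum_iff.2 (hasSum_coef_self u T)
  simp only [Real.norm_eq_abs, sq_abs, xi0_apply] at h1
  simp only [sq] at h1
  have := h1.unique h2
  nlinarith [norm_nonneg (xi0 u T)]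

theorem dist_xi0 {l : ℕ} (u u' : ℝ) (T T' : ℤ → Fin l → ℝ) {D : ℝ}
    (h : ∀ k, zt k u' ≠ 0 → ∑ a, (T k a - T' k a) ^ 2 ≤ D) (hD : 0 ≤ D) :
    ‖xi0 u T - xi0 u' T'‖ ^ 2 ≤ 16 * ((u - u') ^ 2 + D) := by
  have h1 := hasSum_sq (xi0 u T - xi0 u' T')
  have h2 := (cell l).hasSum_iff.2 (((hasSum_coef_self u T).add (hasSum_coef_self u' T')).sub
    ((hasSum_coef u u' T T').mul_left 2))
  have h3 := h1.unique (h2.congr_fun fun n => by
    simp only [lp.coeFn_sub, Pi.sub_apply, xi0_apply, Real.norm_eq_abs, sq_abs,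
      Function.comp_apply]
    ring)
  have h4 : bt u u' * (1 - 8 * D) ≤
      ∑ k ∈ JJ u, zt k u * zt k u' * ∏ a, bt (T k a) (T' k a) := by
    rw [bt, Finset.sum_mul]
    refine Finset.sum_le_sum fun k _ => ?_
    by_cases hk : zt k u' = 0
    · simp [hk]
    refine mul_le_mul_of_nonneg_left ?_ (mul_nonneg (zt_nonneg _ _) (zt_nonneg _ _))
    refine le_trans ?_ (one_sub_sum_le_prod _ _ (fun a => bt_nonneg _ _) fun a => bt_le_one _ _)
    have := Finset.sum_le_sum fun a (_ : a ∈ Finset.univ) =>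
      (show 1 - bt (T k a) (T' k a) ≤ 8 * (T k a - T' k a) ^ 2 by linarith [bt_ge (T k a) (T' k a)])
    rw [← Finset.mul_sum] at this
    linarith [h k hk]
  nlinarith [bt_ge u u', bt_le_one u u', bt_nonneg u u']

end Crest.Agent.R91
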