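import Crest.Agent.R91.Model

/-!
Row 91: triggers, corrections and elementary functions.
-/

set_option autoImplicit false

open Filter Topology TopologicalSpace
open scoped InnerProductSpace

namespace Crest.Agent.R91

theorem clip_lip (u w u' w' : ℝ) : |clip u w - clip u' w'| ≤ max |u - u'| |w - w'| := by
  refine (abs_max_sub_max_le_max _ _ _ _).trans (max_le ?_ (abs_min_sub_min_le_max _ _ _ _))
  rw [neg_sub_neg, abs_sub_comm]
  exact le_max_right _ _

theorem clip_zero (u : ℝ) : clip u 0 = 0 := by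
  rw [clip, neg_zero]; exact max_eq_left (min_le_right _ _)

theorem clip_self {u w : ℝ} (h : |u| ≤ w) : clip u w = u := by
  obtain ⟨h1, h2⟩ := abs_le.1 h
  rw [clip, min_eq_left h2, max_eq_right h1]

theorem abs_clip_le (u : ℝ) {w : ℝ} (h : 0 ≤ w) : |clip u w| ≤ |u| := by
  have := clip_lip u w 0 w
  rwa [clip_self (u := 0) (by simpa using h), sub_zero, sub_zero, sub_self, abs_zero,
    max_eq_left (abs_nonneg _)] at this

variable {E : Type} [NormedAddCommGroup E]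

theorem Lip.mono {C C' : ℝ} {f : MM E → ℝ} (h : Lip C f) (hC : C ≤ C') : Lip C' f :=
  fun x y => (h x y).trans (mul_le_mul_of_nonneg_right hC dist_nonneg)

theorem corr_of_zero {F T : MM E → ℝ} {A c C : ℝ} (hA : 0 ≤ A) {x : MM E} (h : T x = 0) :
    corr F T A c C x = 0 := by
  rw [corr, h, mul_zero, sub_zero, max_eq_left hA, sub_self]

theorem corr_of_full {F T : MM E → ℝ} {A c C : ℝ} {x : MM E} (h : A ≤ C * T x)
    (hF : |F x - c| ≤ A) : F x + corr F T A c C x = c := by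
  rw [corr, max_eq_right (by linarith), clip_zero, clip_self hF]; ring

theorem abs_corr_le {F T : MM E → ℝ} {A c C : ℝ} (hA : 0 ≤ A) {x : MM E} (h : 0 ≤ C * T x) :
    |corr F T A c C x| ≤ A := by
  refine (clip_lip _ _ _ _).trans (max_le (by simpa using hA) ?_)
  rw [abs_sub_comm, abs_of_nonneg (sub_nonneg.2 (max_le (by linarith) hA))]
  linarith [le_max_right (A - C * T x) 0]

theorem clipW_sub {T : MM E → ℝ} {A C : ℝ} (hC : 0 ≤ C) (hT : Lip 1 T) (x y : MM E) :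
    |max (A - C * T x) 0 - max (A - C * T y) 0| ≤ C * dist x y := by
  refine (abs_max_sub_max_le_abs _ _ _).trans ?_
  rw [sub_sub_sub_cancel_left, ← mul_sub, abs_mul, abs_of_nonneg hC, dist_comm]
  exact mul_le_mul_of_nonneg_left (by simpa using hT y x) hC

theorem corr_sub {F T : MM E → ℝ} {A c C L : ℝ} (hC : 0 ≤ C) (hT : Lip 1 T) {x y : MM E}
    (hL : 0 ≤ L) (h : |F x - F y| ≤ L * dist x y) :
    |corr F T A c C x - corr F T A c C y| ≤ (2 * L + C) * dist x y := by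
  have h1 := clip_lip (F x - c) (max (A - C * T x) 0) (F y - c) (max (A - C * T y) 0)
  have h2 := clip_lip (F y - c) A (F x - c) A
  have h3 := clipW_sub (A := A) hC hT x y
  have h4 := mul_nonneg hL (dist_nonneg (x := x) (y := y))
  have h5 := mul_nonneg hC (dist_nonneg (x := x) (y := y))
  rw [sub_sub_sub_cancel_right] at h1 h2
  rw [sub_self, abs_zero, max_eq_left (abs_nonneg _), abs_sub_comm (F y)] at h2
  rw [corr, corr, sub_sub_sub_comm, sub_eq_add_neg, neg_sub]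
  refine (abs_add_le _ _).trans ?_
  linarith [max_le (a := |F x - F y|) (c := (L + C) * dist x y) (by linarith)
    (show |max (A - C * T x) 0 - max (A - C * T y) 0| ≤ _ by linarith)]

variable [InnerProductSpace ℝ E] [CompleteSpace E] [SeparableSpace E]

theorem trig_lip (g : ℝ) (l τ : ℕ) : Lip 1 (trig (E := E) g l τ) := fun x y => by
  refine (abs_min_sub_min_le_max _ _ _ _).trans (max_le (by simp) ?_)
  have := (Metric.lipschitz_infDist_pt (SS (E := E) g l τ)ᶜ).dist_le_mul (trunc l x) (trunc l y)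
  rw [Real.dist_eq] at this
  exact this.trans (by simpa using dist_trunc l x y)

theorem trig_nonneg (g : ℝ) (l τ : ℕ) (x : MM E) : 0 ≤ trig g l τ x :=
  le_min (sc_pos _).le Metric.infDist_nonneg

theorem trig_dep (g : ℝ) (l τ : ℕ) : Dep l (trig (E := E) g l τ) := fun x y h => by
  unfold trig trigQ
  rw [trunc_congr h]

theorem trig_zero {g : ℝ} {l τ : ℕ} {x : MM E} (h : x ∉ SS g l τ) : trig g l τ x = 0 := by
  unfold trig trigQ
  rw [Metric.infDist_zero_of_mem (s := (SS g l τ)ᶜ) (x := trunc l x)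
    fun hx => h (SS_dep (fun n hn => trunc_of_le hn x) hx)]
  exact min_eq_right (sc_pos _).le

theorem sc_half (t : ℝ) : sc (t - 1) ≤ sc t / 2 := by
  have h1 := sc_add (t - 1) 1
  have h2 : 2 ≤ sc 1 := le_trans (by norm_num) (Real.add_one_le_exp _)
  rw [sub_add_cancel] at h1
  nlinarith [sc_pos (t - 1)]

theorem trig_full {g : ℝ} {l τ : ℕ} {x : MM E} (h : x ∈ SS g l τ) :
    trig (g + 1) l τ x = sc ((cell l τ).1 - (g + 1)) := by
  refine min_eq_left ((Metric.le_infDist ⟨0, zero_not_mem _ _ _⟩).2 fun y hy => ?_)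
  by_contra hc
  refine hy (SS_margin (SS_dep (fun n hn => (trunc_of_le hn x).symm) h) ?_)
  rw [← sub_sub] at hc
  exact (not_le.1 hc).le.trans (sc_half _)

theorem PP_trig (l g τ : ℕ) : PP (E := E) l (.inr (.inl (g, τ))) = trig g l τ := by
  rw [PP_eq]
  exact if_pos ⟨trig_lip _ _ _, trig_dep _ _ _, _, fun x =>
    (abs_of_nonneg (trig_nonneg _ _ _ x)).trans_le (min_le_left _ _)⟩

/-- test functions of Hilbert type -/
noncomputable def hf (l : ℕ) (θ : HH E) (x : MM E) : ℝ := ⟪θ, dl l x⟫_ℝ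

theorem hf_lip (l : ℕ) {θ : HH E} (h : ‖θ‖ ≤ 1 / 3) : Lip 1 (hf l θ) := fun x y => by
  rw [hf, hf, ← inner_sub_right]
  refine (abs_real_inner_le_norm _ _).trans ?_
  nlinarith [dl_lip l x y, norm_nonneg θ, norm_nonneg (dl l x - dl l y)]

theorem hf_le (l : ℕ) {θ : HH E} (h : ‖θ‖ ≤ 1 / 3) (x : MM E) : |hf l θ x| ≤ ‖x l‖ := by
  refine (abs_real_inner_le_norm _ _).trans ?_
  nlinarith [norm_dl_le l x, norm_nonneg θ, norm_nonneg (dl l x), norm_nonneg (x l)]

theorem dl_ne {l : ℕ} {x : MM E} {c : ℕ} (h : dl l x c ≠ 0) :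
    xi l ‖x l‖ (fun a => Pre l a x) c ≠ 0 := fun hc => h (disp_apply_eq_zero _ hc)

theorem hf_supp {l τ : ℕ} (u : HH E) {x : MM E} (h : hf l (proj (near l τ) u) x ≠ 0) :
    x ∈ SS 2 l τ := by
  by_contra hx
  refine h ?_
  have h0 : proj (near l τ) (dl l x) = 0 := lp.ext (funext fun c => by
    rw [proj_apply]
    split_ifs with hc
    · by_contra h1
      refine hx (reg_of_near (norm_pos_iff.2 fun h2 => h1 ?_) (dl_ne h1) hc)
      have h3 := norm_dl_le l x
      rw [h2, norm_zero, mul_zero, norm_le_zero_iff] at h3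
      rw [h3]
    · rfl)
  rw [hf, inner_proj, h0, inner_zero_right]

theorem hf_local (l : ℕ) {u : HH E} {a : ℝ} (h : ∀ τ, ‖proj (near l τ) u‖ ≤ a) :
    Lip (12 * a) (hf l u) := fun x y => by
  obtain ⟨t1, t2, h1⟩ := exists_near l ‖x l‖ fun a => Pre l a x
  obtain ⟨t3, t4, h2⟩ := exists_near l ‖y l‖ fun a => Pre l a y
  rw [hf, hf, ← inner_sub_right]
  refine (inner_le_of_supp (A := (near l t1 ∪ near l t2) ∪ (near l t3 ∪ near l t4)) u
    fun c hc => ?_).trans ?_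
  · by_cases h3 : dl l x c = 0
    · exact Or.inr (h2 c (dl_ne fun h4 => hc (by rw [lp.coeFn_sub, Pi.sub_apply, h3, h4, sub_self])))
    · exact Or.inl (h1 c (dl_ne h3))
  · have h3 := norm_proj_union (near l t1 ∪ near l t2) (near l t3 ∪ near l t4) u
    have h4 := norm_proj_union (near l t1) (near l t2) u
    have h5 := norm_proj_union (near l t3) (near l t4) u
    calc _ ≤ (4 * a) * (3 * dist x y) := mul_le_mul (by linarith [h t1, h t2, h t3, h t4])
          (dl_lip l x y) (norm_nonneg _) (by linarith [h t1, norm_nonneg (proj (near l t1) u)])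
      _ = _ := by ring

theorem PP_hf {l m τ : ℕ} (h : ‖denseSeq (HH E) m‖ ≤ 1 / 3) :
    PP (E := E) l (.inl (m, τ)) = hf l (proj (near l τ) (denseSeq (HH E) m)) := by
  have e : cand (Pre (E := E) l) l (.inl (m, τ)) =
      hf l (proj (near l τ) (denseSeq (HH E) m)) := by
    funext x
    change ⟪hv E l m τ, _⟫_ℝ = _
    rw [hv, if_pos h, hf]
  have h1 := (norm_proj_le (near l τ) _).trans h
  rw [PP_eq, e]
  refine if_pos ⟨hf_lip l h1, fun x y hxy => by rw [hf, hf, dl_dep hxy],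
    sc ((cell l τ).1 + 2), fun x => ?_⟩
  by_cases hx : hf l (proj (near l τ) (denseSeq (HH E) m)) x = 0
  · rw [hx, abs_zero]; exact (sc_pos _).le
  · exact (hf_le l h1 x).trans (Reg.upper (hf_supp _ hx))

/-- elementary functions at block `l` -/
def ElAt (l : ℕ) (φ : MM E → ℝ) : Prop :=
  (∃ θ : HH E, ‖θ‖ ≤ 1 / 3 ∧ φ = hf l θ) ∨ ∃ p, φ = PP l (.inr (.inr p))

theorem PP_scalar {l : ℕ} {p : ℕ × ℕ × ℕ × ℤ} (h : PP (E := E) l (.inr (.inr p)) ≠ 0) :
    (p.2.1 ≤ l ∧ p.2.2.1 ≤ l ∧ (∃ x : MM E, |evalH (Pre l) (hcode p.2.2.1).1 x -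
        p.2.2.2 * (sc ((cell l p.1).1 + p.2.1) / 2)| ≤ sc ((cell l p.1).1 + p.2.1))) ∧
      ElQ (Pre l) l p.1 p.2.1 (PP (E := E) l (.inr (.inr p))) := by
  rw [PP_eq] at h ⊢
  split_ifs at h ⊢ with h1
  · unfold cand at h ⊢
    dsimp only at h ⊢
    split_ifs at h ⊢ with h2
    · exact ⟨⟨h2.1, h2.2.1, h2.2.2.1⟩, h2.2.2.2⟩
    · exact (h rfl).elim
  · exact (h rfl).elim

theorem ElAt.lip {l : ℕ} {φ : MM E → ℝ} (h : ElAt l φ) : Lip 1 φ := by
  rcases h with ⟨θ, h, rfl⟩ | ⟨p, rfl⟩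
  exacts [hf_lip l h, (good_PP _ _).1]

theorem ElAt.abs_le {l : ℕ} {φ : MM E → ℝ} (h : ElAt l φ) (x : MM E) : |φ x| ≤ ‖x l‖ := by
  rcases h with ⟨θ, h, rfl⟩ | ⟨p, rfl⟩
  · exact hf_le l h x
  · by_cases h0 : PP (E := E) l (.inr (.inr p)) = 0
    · rw [h0]; simp
    · exact (PP_scalar h0).2.2.1 x

omit [InnerProductSpace ℝ E] [CompleteSpace E] [SeparableSpace E] in
theorem evalH_cons (q : ℕ → MM E → ℝ) (p : ℤ × ℕ) (h : List (ℤ × ℕ)) (x : MM E) :
    evalH q (p :: h) x = p.1 * q p.2 x + evalH q h x := by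
  simp [evalH]

theorem evalH_bdd (l : ℕ) (h : List (ℤ × ℕ)) : ∃ B, ∀ x : MM E, |evalH (Pre l) h x| ≤ B := by
  induction h with
  | nil => exact ⟨0, fun x => by simp [evalH]⟩
  | cons p h ih =>
    obtain ⟨B, hB⟩ := ih
    obtain ⟨B', hB'⟩ := Pre_bdd (E := E) l p.2
    refine ⟨|(p.1 : ℝ)| * B' + B, fun x => ?_⟩
    rw [evalH_cons]
    refine (abs_add_le _ _).trans (add_le_add ?_ (hB x))
    rw [abs_mul]
    exact mul_le_mul_of_nonneg_left (hB' x) (abs_nonneg _)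

theorem evalH_dep (l : ℕ) (h : List (ℤ × ℕ)) : Dep l (evalH (Pre (E := E) l) h) := fun x y hxy => by
  unfold evalH
  simp only [Pre_dep fun n hn => hxy n hn.le]

theorem scalar_finite (l τ : ℕ) :
    {p : ℕ × ℕ × ℕ × ℤ | p.1 = τ ∧ PP (E := E) l (.inr (.inr p)) ≠ 0}.Finite := by
  have key : ∀ g j : ℕ, ∃ N : ℕ, ∀ (z : ℤ) (x : MM E), |evalH (Pre l) (hcode j).1 x -
      z * (sc ((cell l τ).1 + g) / 2)| ≤ sc ((cell l τ).1 + g) → z ∈ Set.Icc (-(N : ℤ)) N := by
    intro g j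
    obtain ⟨B, hB⟩ := evalH_bdd (E := E) l (hcode j).1
    have hA := sc_pos ((cell l τ).1 + g)
    obtain ⟨N, hN⟩ := exists_nat_ge ((B + sc ((cell l τ).1 + g)) / (sc ((cell l τ).1 + g) / 2))
    refine ⟨N, fun z x h => ?_⟩
    rw [div_le_iff₀ (half_pos hA)] at hN
    obtain ⟨h1, h2⟩ := abs_le.1 h
    obtain ⟨h3, h4⟩ := abs_le.1 (hB x)
    have h5 : (z : ℝ) ≤ N := le_of_mul_le_mul_right (by linarith) (half_pos hA)
    have h6 : -(N : ℝ) ≤ z := le_of_mul_le_mul_right (by linarith) (half_pos hA)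
    exact ⟨by exact_mod_cast h6, by exact_mod_cast h5⟩
  choose N hN using key
  refine ((Set.finite_Iic l).biUnion fun g _ => (Set.finite_Iic l).biUnion fun j _ =>
    (Set.finite_Icc (-(N g j : ℤ)) (N g j)).image fun z => (τ, g, j, z)).subset ?_
  rintro ⟨t, g, j, z⟩ ⟨rfl, h⟩
  obtain ⟨⟨h1, h2, x, h3⟩, -⟩ := PP_scalar h
  exact Set.mem_biUnion h1 (Set.mem_biUnion h2 ⟨z, hN g j z x h3, rfl⟩)

/-- functions with a recorded history -/
def Hs (F : MM E → ℝ) : Prop := ∃ h, ∀ᶠ l in atTop, evalH (Pre l) h = F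

theorem Hs.zero : Hs (0 : MM E → ℝ) := ⟨[], Eventually.of_forall fun _ => rfl⟩

theorem Pre_eventually (l : ℕ) (i : Idx) : ∃ a, ∀ l', l < l' → Pre (E := E) l' a = PP l i := by
  obtain ⟨a, ha⟩ := code_surj (l, i)
  exact ⟨a, fun l' h => by rw [Pre, ha, if_pos h]⟩

theorem Hs.add {F : MM E → ℝ} (h : Hs F) (n : ℤ) (l : ℕ) (i : Idx) :
    Hs (F + (n : ℝ) • PP l i) := by
  obtain ⟨h, hh⟩ := h
  obtain ⟨a, ha⟩ := Pre_eventually (E := E) l i
  refine ⟨(n, a) :: h, ?_⟩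
  filter_upwards [hh, eventually_gt_atTop l] with l' h1 h2
  funext x
  rw [evalH_cons, h1, ha l' h2, add_comm]
  rfl

theorem Hs.bdd {F : MM E → ℝ} (h : Hs F) : ∃ B, ∀ x, |F x| ≤ B := by
  obtain ⟨h, hh⟩ := h
  obtain ⟨l, rfl⟩ := hh.exists
  exact evalH_bdd l h

theorem corr_avail (g C : ℕ) {M : ℝ} (hM : 0 ≤ M) : ∃ D : ℕ, ∀ F : MM E → ℝ, Hs F → Lip M F →
    ∀ᶠ l in atTop, ∀ (τ : ℕ) (z : ℤ),
      (∃ x, |F x - z * (sc ((cell l τ).1 + g) / 2)| ≤ sc ((cell l τ).1 + g)) →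
      ∃ p, corr F (trig g l τ) (sc ((cell l τ).1 + g)) (z * (sc ((cell l τ).1 + g) / 2)) C =
        (D : ℝ) • PP l (.inr (.inr p)) := by
  obtain ⟨D, hD⟩ := exists_nat_ge ((2 * M + C) * 2 ^ g + sc (2 * g))
  have hp : (1 : ℝ) ≤ 2 ^ g := one_le_pow₀ (by norm_num)
  have hC : (0 : ℝ) ≤ C := C.cast_nonneg
  have h2g := sc_pos (2 * g)
  have hD1 : (2 * M + C) * 2 ^ g ≤ D := by linarith
  have hD2 : sc (2 * g) ≤ D := by nlinarith
  have hD0 : (0 : ℝ) < D := by linarith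
  refine ⟨D, fun F ⟨h, hh⟩ hF => ?_⟩
  obtain ⟨j, hj⟩ := hcode_surj (h, C, D)
  filter_upwards [hh, eventually_ge_atTop g, eventually_ge_atTop j] with l h1 h2 h3 τ z hz
  refine ⟨(τ, g, j, z), ?_⟩
  set A := sc ((cell l τ).1 + g) with hA
  have hA0 : 0 ≤ A := (sc_pos _).le
  set κ := corr F (trig g l τ) A (z * (A / 2)) C with hκ
  have e : kapQ (Pre l) l τ g (hcode j) z = fun x => κ x / D := by
    funext x
    rw [kapQ, hj, h1]
  have hb : ∀ x, |κ x| ≤ A := fun x => abs_corr_le hA0 (mul_nonneg hC (trig_nonneg _ _ _ x))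
  have hs : ∀ x, κ x ≠ 0 → x ∈ SS g l τ := fun x hx =>
    by_contra fun hc => hx (corr_of_zero hA0 (trig_zero hc))
  have hl : Lip ((1 / 2) ^ g) fun x => κ x / D := fun x y => by
    rw [← sub_div, abs_div, abs_of_pos hD0, div_le_iff₀ hD0]
    refine (corr_sub hC (trig_lip _ _ _) hM (hF x y)).trans ?_
    rw [mul_right_comm]
    refine mul_le_mul_of_nonneg_right ?_ dist_nonneg
    rwa [one_div, inv_pow, le_inv_mul_iff₀ (by positivity), mul_comm]
  have hel : ElQ (Pre l) l τ g fun x => κ x / D := by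
    refine ⟨hl, fun x => ?_, fun x hx => hs x fun h0 => hx (by simp [h0])⟩
    by_cases h0 : κ x = 0
    · simp [h0]
    · have h4 := Reg.lower (hs x h0)
      have h5 := sc_add ((cell l τ).1 - g) (2 * g)
      rw [show ((cell l τ).1 : ℝ) - g + 2 * g = (cell l τ).1 + g by ring] at h5
      rw [abs_div, abs_of_pos hD0, div_le_iff₀ hD0]
      exact (hb x).trans (h5.le.trans (mul_le_mul h4 hD2 h2g.le (norm_nonneg _)))
  have e2 : cand (Pre l) l (.inr (.inr (τ, g, j, z))) = fun x => κ x / D := by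
    unfold cand
    dsimp only
    rw [e, if_pos ⟨h2, h3, by rwa [hj, h1], hel⟩]
  rw [PP_eq, e2, if_pos]
  · funext x
    rw [Pi.smul_apply, smul_eq_mul, mul_div_cancel₀ _ hD0.ne']
  · refine ⟨hl.mono (pow_le_one₀ (by norm_num) (by norm_num)), fun x y hxy => ?_, A / D, fun x => ?_⟩
    · have h4 := evalH_dep l h x y hxy
      rw [h1] at h4
      simp only [hκ, corr, trig_dep _ _ _ x y hxy, h4]
    · rw [abs_div, abs_of_pos hD0]
      exact div_le_div_of_nonneg_right (hb x) hD0.le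

end Crest.Agent.R91
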