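import Crest.Agent.R91.Space

/-!
Row 91: signed sums and growth arguments.
-/

set_option autoImplicit false

open Filter Topology TopologicalSpace
open scoped InnerProductSpace

namespace Crest.Agent.R91

/-- signs -/
def Sg (ε : ℝ) : Prop := ε = 1 ∨ ε = -1

theorem Sg.abs {ε : ℝ} (h : Sg ε) : |ε| = 1 := by rcases h with rfl | rfl <;> simp

theorem exists_sg (a : ℝ) : ∃ ε, Sg ε ∧ ε * a = |a| := by
  rcases le_total 0 a with h | h
  · exact ⟨1, Or.inl rfl, by rw [one_mul, abs_of_nonneg h]⟩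
  · exact ⟨-1, Or.inr rfl, by rw [neg_one_mul, abs_of_nonpos h]⟩

theorem signs (a : ℝ) {b c : ℝ} (h : c ≤ |b|) :
    ∃ ε ε', Sg ε ∧ Sg ε' ∧ c ≤ ε * a + ε * ε' * b := by
  obtain ⟨ε, h1, h2⟩ := exists_sg a
  obtain ⟨ε', h3, h4⟩ := exists_sg (ε * b)
  rw [abs_mul, h1.abs, one_mul] at h4
  exact ⟨ε, ε', h1, h3, by linarith [abs_nonneg a, mul_right_comm ε ε' b, mul_comm ε' (ε * b)]⟩

/-- a free ultrafilter -/
noncomputable abbrev UU : Ultrafilter ℕ := hyperfilter ℕ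

theorem nat_dich (f : ℕ → ℕ) : (∃ a, ∀ᶠ i in UU, f i = a) ∨ Tendsto f UU atTop := by
  rcases (UU.map f).le_cofinite_or_eq_pure with h | ⟨a, h⟩
  · exact Or.inr (by rwa [← Nat.cofinite_eq_atTop])
  · exact Or.inl ⟨a, show {a} ∈ UU.map f from h ▸ Ultrafilter.mem_pure.2 rfl⟩

theorem int_dich (k : ℕ → ℤ) : (∀ᶠ i in UU, ∀ᶠ j in UU, k i ≤ k j) ∨ Tendsto k UU atBot := by
  refine (UU.em _).imp_right fun h => tendsto_atBot.2 fun b => ?_
  have h1 : ∀ᶠ i in UU, ∀ᶠ j in UU, k j < k i :=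
    h.mono fun i hi => (Ultrafilter.eventually_not.2 hi).mono fun _ => not_le.1
  obtain ⟨i0, h0⟩ := h1.exists
  have h2 : ∀ n : ℕ, ∀ᶠ j in UU, k j ≤ k i0 - n := fun n => by
    induction n with
    | zero => exact h0.mono fun j hj => by omega
    | succ n ih =>
      obtain ⟨i, h3, h4⟩ := (ih.and h1).exists
      exact h4.mono fun j hj => by omega
  exact (h2 (k i0 - b).toNat).mono fun j hj => by omega

theorem fin_const {α : Type*} {f : ℕ → α} {s : Set α} (hs : s.Finite) (h : ∀ᶠ i in UU, f i ∈ s) :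
    ∃ a, ∀ᶠ i in UU, f i = a := by
  obtain ⟨a, -, h⟩ := (UU.map f).eq_pure_of_finite_mem hs h
  exact ⟨a, show {a} ∈ UU.map f from h ▸ Ultrafilter.mem_pure.2 rfl⟩

theorem unbounded {c B : ℝ} (hc : 0 < c) (h : ∀ j : ℕ, j * c ≤ B) : False := by
  obtain ⟨j, hj⟩ := exists_nat_gt (B / c)
  linarith [h j, (div_lt_iff₀ hc).1 hj]

variable {V : Type} [NormedAddCommGroup V] [NormedSpace ℝ V]

/-- signed finite sums -/
inductive SSum (z : ℕ → V) : ℕ → V → Prop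
  | zero : SSum z 0 0
  | step {N i : ℕ} {y : V} {ε : ℝ} : SSum z N y → N ≤ i → Sg ε → SSum z (i + 1) (y + ε • z i)

/-- bounded signed sums -/
def Bd (z : ℕ → V) (K : ℝ) : Prop := ∀ N y, SSum z N y → ‖y‖ ≤ K

theorem Bd.growth {z : ℕ → V} {K : ℝ} (hK : Bd z K) (P : ℕ → V → Prop) (h0 : P 0 0)
    (hs : ∀ j y, P j y → ∀ᶠ i in UU, ∃ ε, Sg ε ∧ P (j + 1) (y + ε • z i)) (j : ℕ) :
    ∃ y, ‖y‖ ≤ K ∧ P j y := by
  suffices h : ∃ N y, SSum z N y ∧ P j y from let ⟨N, y, h1, h2⟩ := h; ⟨y, hK N y h1, h2⟩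
  induction j with
  | zero => exact ⟨0, 0, .zero, h0⟩
  | succ j ih =>
    obtain ⟨N, y, h1, h2⟩ := ih
    obtain ⟨i, ⟨ε, h3, h4⟩, h5⟩ :=
      ((hs j y h2).and (Nat.hyperfilter_le_atTop (eventually_ge_atTop N))).exists
    exact ⟨_, _, h1.step h5 h3, h4⟩

theorem Bd.norm_le {z : ℕ → V} {K : ℝ} (hK : Bd z K) (i : ℕ) : ‖z i‖ ≤ K := by
  simpa using hK _ _ (SSum.zero.step (Nat.zero_le i) (Or.inl rfl))

theorem Bd.hilbert {z : ℕ → V} {K : ℝ} (hK : Bd z K) {H : Type} [NormedAddCommGroup H]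
    [InnerProductSpace ℝ H] (T : V →L[ℝ] H) {η : ℝ} (hη : 0 < η) :
    ∀ᶠ i in UU, ‖T (z i)‖ < η := by
  by_contra hc
  refine unbounded (pow_pos hη 2) (B := (‖T‖ * K) ^ 2) fun j => ?_
  obtain ⟨y, h1, h2⟩ := hK.growth (fun j y => j * η ^ 2 ≤ ‖T y‖ ^ 2) (by simp) (fun j y h => by
    filter_upwards [Ultrafilter.eventually_not.2 hc] with i hi
    obtain ⟨ε, h1, h2⟩ := exists_sg ⟪T y, T (z i)⟫_ℝ
    refine ⟨ε, h1, ?_⟩
    rw [map_add, map_smul, norm_add_sq_real, real_inner_smul_right, h2, norm_smul,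
      Real.norm_eq_abs, h1.abs, one_mul]
    have := pow_le_pow_left₀ hη.le (not_lt.1 hi) 2
    push_cast
    linarith [abs_nonneg ⟪T y, T (z i)⟫_ℝ]) j
  exact h2.trans (pow_le_pow_left₀ (norm_nonneg _) (T.le_opNorm_of_le h1) 2)

theorem l1_add {W : ℕ → Type} [∀ n, NormedAddCommGroup (W n)] (y w : lp W 1) (s : Finset ℕ) :
    ‖w‖ - ‖y‖ + ∑ n ∈ s, (2 * ‖y n‖ - 2 * ‖w n‖) ≤ ‖y + w‖ := by
  have h := hasSum_sum_of_ne_finset_zero (L := SummationFilter.unconditional _)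
    (f := fun n => if n ∈ s then 2 * ‖y n‖ - 2 * ‖w n‖ else 0) (s := s) fun n hn => if_neg hn
  rw [Finset.sum_congr rfl fun n hn => if_pos hn] at h
  refine hasSum_le (fun n => ?_) (((hasSum_one w).sub (hasSum_one y)).add h) (hasSum_one _)
  change _ ≤ ‖y n + w n‖
  have h1 := norm_sub_le (y n + w n) (w n)
  have h2 := norm_sub_le (y n + w n) (y n)
  rw [add_sub_cancel_right] at h1
  rw [add_sub_cancel_left] at h2
  split_ifs <;> linarith

theorem Bd.hump {z : ℕ → V} {K : ℝ} (hK : Bd z K) {W : ℕ → Type} [∀ n, NormedAddCommGroup (W n)]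
    [∀ n, NormedSpace ℝ (W n)] (T : V →L[ℝ] lp W 1)
    (h : ∀ n, ∀ η > 0, ∀ᶠ i in UU, ‖T (z i) n‖ ≤ η) {η : ℝ} (hη : 0 < η) :
    ∀ᶠ i in UU, ‖T (z i)‖ < η := by
  by_contra hc
  refine unbounded (half_pos hη) (B := ‖T‖ * K) fun j => ?_
  obtain ⟨y, h1, h2⟩ := hK.growth (fun j y => j * (η / 2) ≤ ‖T y‖) (by simp) (fun j y hy => by
    obtain ⟨s, hs⟩ := ((hasSum_one (T y)).eventually_const_lt
      (show ‖T y‖ - η / 8 < ‖T y‖ by linarith)).exists
    filter_upwards [Ultrafilter.eventually_not.2 hc, (eventually_all_finset s).2 fun n _ =>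
      h n (η / 8 / (s.card + 1)) (by positivity)] with i h1 h2
    refine ⟨1, Or.inl rfl, ?_⟩
    have h3 := Finset.sum_le_card_nsmul s _ _ h2
    have h4 : (s.card : ℝ) * (η / 8 / (s.card + 1)) ≤ η / 8 := by
      rw [mul_div_assoc', div_le_iff₀ (by positivity)]; nlinarith
    have h5 := l1_add (T y) (T (z i)) s
    rw [Finset.sum_sub_distrib, ← Finset.mul_sum, ← Finset.mul_sum] at h5
    rw [nsmul_eq_mul] at h3
    rw [one_smul, map_add]
    push_cast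
    linarith [not_lt.1 h1]) j
  exact h2.trans (T.le_opNorm_of_le h1)

variable {E : Type} [NormedAddCommGroup E] [InnerProductSpace ℝ E] [CompleteSpace E]
  [SeparableSpace E]

theorem comb_zero : Comb 0 (0 : MM E → ℝ) := by
  simpa using (Comb.el (l := 0) (Or.inl ⟨(0 : HH E), by simp, rfl⟩)).smul 0

theorem Comb.sg {l : ℕ} {φ : MM E → ℝ} (h : ElAt l φ) {ε : ℝ} (hε : Sg ε) : Comb 1 (ε • φ) := by
  simpa [hε.abs] using (Comb.el h).smul ε

theorem Bd.generic {z : ℕ → YY E} {K : ℝ} (hK : Bd z K) (Inv : (MM E → ℝ) → Prop) {M D c : ℝ}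
    (hc : 0 < c) (hD : 0 < D) (h0 : Inv 0) (hL : ∀ F, Inv F → Lip M F)
    (hs : ∀ F y, Inv F → ∀ᶠ i in UU, ∃ G ε, Sg ε ∧ Comb D G ∧ Inv (F + G) ∧
      c ≤ hat G (y + ε • z i)) : False := by
  obtain ⟨n, hn⟩ := pow_unbounded_of_one_lt (K / (c / 2 / D)) (one_lt_two (α := ℝ))
  obtain ⟨j, hj⟩ := exists_nat_gt (2 ^ n * |M| * 2 ^ (n + 1) / D)
  have hj0 : (0 : ℝ) < j := lt_of_le_of_lt (by positivity) hj
  obtain ⟨y, h1, F, h2, h3, h4⟩ := hK.growth
    (fun j y => ∃ F, Inv F ∧ Comb (j * D) F ∧ j * (c / 2) ≤ hat F y)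
    ⟨0, h0, comb_zero.mono (by simp), by simp⟩ (fun j y ⟨F, h1, h2, h3⟩ => by
      filter_upwards [hs F y h1, hK.hilbert (hat F) (half_pos hc)] with i ⟨G, ε, h4, h5, h6, h7⟩ h8
      refine ⟨ε, h4, F + G, h6, (h2.add h5).mono (by push_cast; linarith), ?_⟩
      have h9 : |ε * hat F (z i)| < c / 2 := by rwa [abs_mul, h4.abs, one_mul]
      rw [hat_add h2 h5, map_add (hat F), map_smul, smul_eq_mul]
      push_cast
      linarith [(abs_lt.1 h9).1]) j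
  have ha : |2 ^ n / (j * D)| = 2 ^ n / (j * D) := abs_of_pos (by positivity)
  have h5 := hat_le (n := n) ((h3.smul (2 ^ n / (j * D))).mono (by
    rw [ha, div_mul_cancel₀ _ (by positivity)])) ((((hL F h2).mono (le_abs_self M)).smul _).mono (by
      rw [ha, one_div, inv_pow, div_mul_eq_mul_div, div_le_iff₀ (by positivity),
        le_inv_mul_iff₀ (by positivity), mul_comm]
      exact ((div_lt_iff₀ hD).1 hj).le)) y
  rw [hat_smul h3] at h5
  have h6 : 2 ^ n * (c / 2 / D) ≤ 2 ^ n / (j * D) * hat F y :=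
    le_trans (le_of_eq (by field_simp)) (mul_le_mul_of_nonneg_left h4 (by positivity))
  linarith [(div_lt_iff₀ (by positivity)).1 hn, le_abs_self (2 ^ n / (j * D) * hat F y)]

end Crest.Agent.R91
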