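import Mathlib

/-!
Row 91: Hilbert hotels along a unit vector of `ℓ²`.
-/

set_option autoImplicit false

open scoped InnerProductSpace ENNReal

namespace Crest.Agent.R91

/-- real `ℓ²` -/
abbrev L2 : Type := lp (fun _ : ℕ => ℝ) 2

variable {E : Type} [NormedAddCommGroup E] [InnerProductSpace ℝ E]

/-- `ℓ²(E)` -/
abbrev LE (E : Type) [NormedAddCommGroup E] : Type := lp (fun _ : ℕ => E) 2

omit [InnerProductSpace ℝ E] in
theorem memL_iff (f : ℕ → E) : Memℓp f 2 ↔ Summable fun n => ‖f n‖ ^ 2 := by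
  rw [memℓp_gen_iff (by norm_num)]
  simp

omit [InnerProductSpace ℝ E] in
theorem hasSum_sq (f : LE E) : HasSum (fun n => ‖f n‖ ^ 2) (‖f‖ ^ 2) := by
  simpa using lp.hasSum_norm (p := 2) (by norm_num) f

/-- put a vector in front of a sequence -/
def consF (e : E) (κ : ℕ → E) : ℕ → E
  | 0 => e
  | m + 1 => κ m

/-- put a vector in front of a sequence -/
noncomputable def cons (e : E) (κ : LE E) : LE E :=
  ⟨consF e κ, (memL_iff (consF e κ)).2
    ((summable_nat_add_iff (f := fun n => ‖consF e κ n‖ ^ 2) 1).1 (hasSum_sq κ).summable)⟩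

/-- drop the first entry -/
noncomputable def tail (κ : LE E) : LE E :=
  ⟨fun n => κ (n + 1), (memL_iff fun n => κ (n + 1)).2
    ((summable_nat_add_iff (f := fun n => ‖κ n‖ ^ 2) 1).2 (hasSum_sq κ).summable)⟩

omit [InnerProductSpace ℝ E] in
theorem cons_tail (κ : LE E) : cons (κ 0) (tail κ) = κ := by
  refine lp.ext (funext fun n => ?_)
  cases n <;> rfl

omit [InnerProductSpace ℝ E] in
theorem cons_sub (e e' : E) (κ κ' : LE E) : cons e κ - cons e' κ' = cons (e - e') (κ - κ') := by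
  refine lp.ext (funext fun n => ?_)
  cases n <;> rfl

omit [InnerProductSpace ℝ E] in
theorem norm_cons (e : E) (κ : LE E) : ‖cons e κ‖ ^ 2 = ‖e‖ ^ 2 + ‖κ‖ ^ 2 := by
  have h := (hasSum_nat_add_iff (f := fun n => ‖consF e κ n‖ ^ 2) 1).1 (hasSum_sq κ)
  rw [(hasSum_sq (cons e κ)).unique h, Finset.sum_range_one, add_comm]
  rfl

variable {K : Type} [NormedAddCommGroup K] [InnerProductSpace ℝ K]

theorem hasSum_tens (ξ : L2) (κ : K) :
    HasSum (fun c => ‖ξ c • κ‖ ^ 2) ((‖ξ‖ * ‖κ‖) ^ 2) := by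
  simpa only [norm_smul, mul_pow] using (hasSum_sq ξ).mul_right (‖κ‖ ^ 2)

/-- `κ ↦ ξ ⊗ κ` -/
noncomputable def tens (ξ : L2) : K →L[ℝ] LE K :=
  LinearMap.mkContinuous
    { toFun := fun κ => ⟨fun c => ξ c • κ, (memL_iff _).2 (hasSum_tens ξ κ).summable⟩
      map_add' := fun a b => by ext c; exact smul_add _ _ _
      map_smul' := fun r a => by ext c; exact smul_comm _ _ _ } ‖ξ‖
    fun κ => le_of_eq ((pow_left_inj₀ (norm_nonneg _) (by positivity) two_ne_zero).1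
      ((hasSum_sq _).unique (hasSum_tens ξ κ)))

theorem tens_apply (ξ : L2) (κ : K) (c : ℕ) : tens ξ κ c = ξ c • κ := rfl

theorem norm_tens (ξ : L2) (κ : K) : ‖tens ξ κ‖ = ‖ξ‖ * ‖κ‖ :=
  (pow_left_inj₀ (norm_nonneg _) (by positivity) two_ne_zero).1
    ((hasSum_sq _).unique (hasSum_tens ξ κ))

theorem tens_sub (ξ ξ' : L2) : (tens ξ - tens ξ' : K →L[ℝ] LE K) = tens (ξ - ξ') := by
  ext κ c
  exact (sub_smul _ _ _).symm

theorem opNorm_tens (ξ : L2) : ‖(tens ξ : K →L[ℝ] LE K)‖ ≤ ‖ξ‖ :=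
  ContinuousLinearMap.opNorm_le_bound _ (norm_nonneg _) fun κ => (norm_tens ξ κ).le

variable [CompleteSpace K]

/-- contraction with `ξ` -/
noncomputable def cot (ξ : L2) : LE K →L[ℝ] K := ContinuousLinearMap.adjoint (tens ξ)

theorem norm_cot (ξ : L2) (w : LE K) : ‖cot ξ w‖ ≤ ‖ξ‖ * ‖w‖ :=
  (cot ξ).le_of_opNorm_le (by rw [cot, LinearIsometryEquiv.norm_map]; exact opNorm_tens ξ) w

theorem cot_sub (ξ ξ' : L2) (w : LE K) : cot ξ w - cot ξ' w = cot (ξ - ξ') w := by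
  rw [cot, cot, cot, ← tens_sub, map_sub]; rfl

theorem cot_tens {ξ : L2} (h : ‖ξ‖ = 1) (κ : K) : cot ξ (tens ξ κ) = κ := by
  refine ext_inner_right ℝ fun v => ?_
  rw [cot, ContinuousLinearMap.adjoint_inner_left]
  let A : K →ₗᵢ[ℝ] LE K := ⟨(tens ξ).toLinearMap, fun a => by
    simpa [h] using norm_tens ξ a⟩
  exact A.inner_map_map κ v

theorem norm_replace {ξ : L2} (h : ‖ξ‖ = 1) (w : LE K) (κ : K) :
    ‖w + tens ξ (κ - cot ξ w)‖ ^ 2 = ‖w‖ ^ 2 - ‖cot ξ w‖ ^ 2 + ‖κ‖ ^ 2 := by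
  have e : ⟪w, tens ξ (κ - cot ξ w)⟫_ℝ = ⟪cot ξ w, κ - cot ξ w⟫_ℝ :=
    (ContinuousLinearMap.adjoint_inner_left _ _ _).symm
  rw [norm_add_sq_real, norm_tens, h, one_mul, e,
    norm_sub_sq_real, inner_sub_right, real_inner_self_eq_norm_sq, real_inner_comm]
  ring

/-- the block of the target space -/
abbrev HH (E : Type) [NormedAddCommGroup E] : Type := LE (LE E)

/-- the block of the source space -/
abbrev GG (E : Type) [NormedAddCommGroup E] : Type := WithLp 2 (E × HH E)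

variable [CompleteSpace E]

/-- displacement of the hotel along `ξ` -/
noncomputable def disp (ξ : L2) (g : GG E) : HH E :=
  tens ξ (cons g.fst (cot ξ g.snd) - cot ξ g.snd)

theorem disp_sub (ξ : L2) (g g' : GG E) : disp ξ g - disp ξ g' = disp ξ (g - g') := by
  unfold disp
  rw [← map_sub, WithLp.sub_fst, WithLp.sub_snd, map_sub (cot ξ), ← cons_sub]
  congr 1
  abel

theorem norm_hotel {ξ : L2} (h : ‖ξ‖ = 1) (g : GG E) : ‖g.snd + disp ξ g‖ = ‖g‖ := by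
  refine (pow_left_inj₀ (norm_nonneg _) (norm_nonneg _) two_ne_zero).1 ?_
  rw [disp, norm_replace h, norm_cons, WithLp.prod_norm_sq_eq_of_L2]
  ring

theorem dist_hotel {ξ : L2} (h : ‖ξ‖ = 1) (g g' : GG E) :
    ‖(g.snd + disp ξ g) - (g'.snd + disp ξ g')‖ = ‖g - g'‖ := by
  rw [← norm_hotel h (g - g'), ← disp_sub, WithLp.sub_snd]
  congr 1
  abel

theorem hotel_surj {ξ : L2} (h : ‖ξ‖ = 1) (y : HH E) : ∃ g : GG E, g.snd + disp ξ g = y := by
  refine ⟨WithLp.toLp 2 (cot ξ y 0, y + tens ξ (tail (cot ξ y) - cot ξ y)), ?_⟩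
  have e : cot ξ (y + tens ξ (tail (cot ξ y) - cot ξ y)) = tail (cot ξ y) := by
    rw [map_add, cot_tens h]; abel
  rw [disp, WithLp.toLp_fst, WithLp.toLp_snd, e, cons_tail, add_assoc, ← map_add,
    sub_add_sub_cancel, sub_self, map_zero, add_zero]

omit [CompleteSpace E] [InnerProductSpace ℝ E] in
theorem norm_cons_le {e : E} {κ : LE E} {g : GG E} (h1 : e = g.fst) (h2 : ‖κ‖ ≤ ‖g.snd‖) :
    ‖cons e κ‖ ≤ ‖g‖ := by
  refine (pow_le_pow_iff_left₀ (norm_nonneg _) (norm_nonneg _) two_ne_zero).1 ?_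
  rw [norm_cons, WithLp.prod_norm_sq_eq_of_L2, h1]
  gcongr

theorem norm_inner_le {ξ : L2} (h : ‖ξ‖ = 1) (g : GG E) :
    ‖cons g.fst (cot ξ g.snd) - cot ξ g.snd‖ ≤ 2 * ‖g‖ := by
  have h1 : ‖cot ξ g.snd‖ ≤ ‖g.snd‖ := by simpa [h] using norm_cot ξ g.snd
  linarith [norm_sub_le (cons g.fst (cot ξ g.snd)) (cot ξ g.snd), norm_cons_le rfl h1,
    WithLp.norm_snd_le _ g]

theorem norm_disp_le {ξ : L2} (h : ‖ξ‖ = 1) (g : GG E) : ‖disp ξ g‖ ≤ 2 * ‖g‖ := by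
  rw [disp, norm_tens, h, one_mul]; exact norm_inner_le h g

theorem disp_lip {ξ ξ' : L2} (h : ‖ξ‖ = 1) (h' : ‖ξ'‖ = 1) (g : GG E) :
    ‖disp ξ g - disp ξ' g‖ ≤ 4 * (‖ξ - ξ'‖ * ‖g‖) := by
  have e : disp ξ g - disp ξ' g = tens (ξ - ξ') (cons g.fst (cot ξ g.snd) - cot ξ g.snd) +
      tens ξ' (cons 0 (cot (ξ - ξ') g.snd) - cot (ξ - ξ') g.snd) := by
    rw [← tens_sub, ← cot_sub, ← sub_self g.fst, ← cons_sub]
    simp only [disp, sub_apply, map_sub]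
    abel
  have h1 : ‖cot (ξ - ξ') g.snd‖ ≤ ‖ξ - ξ'‖ * ‖g‖ :=
    (norm_cot _ _).trans (mul_le_mul_of_nonneg_left (WithLp.norm_snd_le _ g) (norm_nonneg _))
  have h2 : ‖cons (0 : E) (cot (ξ - ξ') g.snd)‖ = ‖cot (ξ - ξ') g.snd‖ :=
    (pow_left_inj₀ (norm_nonneg _) (norm_nonneg _) two_ne_zero).1 (by rw [norm_cons]; simp)
  have h3 := norm_sub_le (cons (0 : E) (cot (ξ - ξ') g.snd)) (cot (ξ - ξ') g.snd)
  have h4 := mul_le_mul_of_nonneg_left (norm_inner_le h g) (norm_nonneg (ξ - ξ'))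
  rw [e]
  refine (norm_add_le _ _).trans ?_
  rw [norm_tens, norm_tens, h', one_mul]
  linarith

theorem disp_apply_eq_zero {ξ : L2} (g : GG E) {c : ℕ} (h : ξ c = 0) : disp ξ g c = 0 := by
  rw [disp, tens_apply, h, zero_smul]

end Crest.Agent.R91
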