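import Crest.Agent.R91.Block

/-!
Row 91: the recursive system of location functions and elementary functions.
-/

set_option autoImplicit false

open Filter Topology TopologicalSpace
open scoped InnerProductSpace

namespace Crest.Agent.R91

/-- the source metric space -/
abbrev MM (E : Type) [NormedAddCommGroup E] : Type := C0 (GG E)

variable {E : Type} [NormedAddCommGroup E]

/-- Lipschitz bound -/
def Lip (C : ℝ) (f : MM E → ℝ) : Prop := ∀ x y, |f x - f y| ≤ C * dist x y

/-- dependence on the first blocks only -/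
def Dep (l : ℕ) (f : MM E → ℝ) : Prop := ∀ x y : MM E, (∀ n ≤ l, x n = y n) → f x = f y

/-- admissible location functions -/
def Good (l : ℕ) (f : MM E → ℝ) : Prop := Lip 1 f ∧ Dep l f ∧ ∃ B, ∀ x, |f x| ≤ B

/-- clipping -/
def clip (u w : ℝ) : ℝ := max (-w) (min u w)

/-- regions -/
def RegQ (q : ℕ → MM E → ℝ) (g : ℝ) (l τ : ℕ) : Set (MM E) :=
  {x | Reg g l τ ‖x l‖ fun a => q a x}

/-- triggers -/
noncomputable def trigQ (q : ℕ → MM E → ℝ) (g : ℝ) (l τ : ℕ) (x : MM E) : ℝ :=
  min (sc ((cell l τ).1 - g)) (Metric.infDist (trunc l x) (RegQ q g l τ)ᶜ)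

/-- integer combinations of location functions -/
noncomputable def evalH (q : ℕ → MM E → ℝ) (h : List (ℤ × ℕ)) (x : MM E) : ℝ :=
  (h.map fun p => (p.1 : ℝ) * q p.2 x).sum

/-- the correction of a function `F` -/
noncomputable def corr (F T : MM E → ℝ) (A c C : ℝ) (x : MM E) : ℝ :=
  clip (F x - c) (max (A - C * T x) 0) - clip (F x - c) A

/-- histories -/
abbrev Hist : Type := List (ℤ × ℕ) × ℕ × ℕ

/-- enumeration of histories -/
noncomputable def hcode : ℕ → Hist := (exists_surjective_nat Hist).choose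

/-- indices of the functions created at one block -/
abbrev Idx : Type := (ℕ × ℕ) ⊕ (ℕ × ℕ) ⊕ (ℕ × ℕ × ℕ × ℤ)

/-- enumeration of all created functions -/
noncomputable def code : ℕ → ℕ × Idx := (exists_surjective_nat (ℕ × Idx)).choose

theorem hcode_surj : Function.Surjective hcode := (exists_surjective_nat Hist).choose_spec

theorem code_surj : Function.Surjective code := (exists_surjective_nat (ℕ × Idx)).choose_spec

/-- normalised corrections -/
noncomputable def kapQ (q : ℕ → MM E → ℝ) (l τ g : ℕ) (h : Hist) (z : ℤ) (x : MM E) : ℝ :=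
  corr (evalH q h.1) (trigQ q g l τ) (sc ((cell l τ).1 + g)) (z * (sc ((cell l τ).1 + g) / 2))
    h.2.1 x / h.2.2

/-- elementary scalar functions -/
def ElQ (q : ℕ → MM E → ℝ) (l τ g : ℕ) (f : MM E → ℝ) : Prop :=
  Lip ((1 / 2) ^ g) f ∧ (∀ x, |f x| ≤ ‖x l‖) ∧ ∀ x, f x ≠ 0 → x ∈ RegQ q g l τ

variable [InnerProductSpace ℝ E] [CompleteSpace E]

/-- displacement at block `l` -/
noncomputable def dlQ (q : ℕ → MM E → ℝ) (l : ℕ) (x : MM E) : HH E :=
  disp (xi l ‖x l‖ fun a => q a x) (x l)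

variable [SeparableSpace E]

open Classical in
/-- test vectors -/
noncomputable def hv (E : Type) [NormedAddCommGroup E] [InnerProductSpace ℝ E] [SeparableSpace E]
    (l m τ : ℕ) : HH E :=
  if ‖denseSeq (HH E) m‖ ≤ 1 / 3 then proj (near l τ) (denseSeq (HH E) m) else 0

open Classical in
/-- candidates at block `l` -/
noncomputable def cand (q : ℕ → MM E → ℝ) (l : ℕ) : Idx → MM E → ℝ
  | .inl p => fun x => ⟪hv E l p.1 p.2, dlQ q l x⟫_ℝ
  | .inr (.inl p) => trigQ q p.1 l p.2
  | .inr (.inr p) =>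
    if p.2.1 ≤ l ∧ p.2.2.1 ≤ l ∧ (∃ x, |evalH q (hcode p.2.2.1).1 x -
        p.2.2.2 * (sc ((cell l p.1).1 + p.2.1) / 2)| ≤ sc ((cell l p.1).1 + p.2.1)) ∧
      ElQ q l p.1 p.2.1 (kapQ q l p.1 p.2.1 (hcode p.2.2.1) p.2.2.2)
    then kapQ q l p.1 p.2.1 (hcode p.2.2.1) p.2.2.2 else 0

open Classical in
/-- the functions created at block `l` -/
noncomputable def PP (l : ℕ) (i : Idx) : MM E → ℝ :=
  let f := cand (fun a => if _h : (code a).1 < l then PP (code a).1 (code a).2 else 0) l i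
  if Good l f then f else 0
termination_by l

/-- location functions available at block `l` -/
noncomputable def Pre (l a : ℕ) : MM E → ℝ :=
  if (code a).1 < l then PP (code a).1 (code a).2 else 0

open Classical in
theorem PP_eq (l : ℕ) (i : Idx) :
    PP (E := E) l i =
      if Good l (cand (Pre (E := E) l) l i) then cand (Pre (E := E) l) l i else 0 := by
  rw [PP]
  rfl

omit [InnerProductSpace ℝ E] [CompleteSpace E] [SeparableSpace E] in
theorem good_zero (l : ℕ) : Good (E := E) l 0 :=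
  ⟨fun x y => by simp, fun _ _ _ => rfl, 0, fun x => by simp⟩

theorem good_PP (l : ℕ) (i : Idx) : Good l (PP (E := E) l i) := by
  rw [PP_eq]
  split_ifs with h
  exacts [h, good_zero l]

theorem Pre_lip (l a : ℕ) (x y : MM E) : |Pre l a x - Pre l a y| ≤ dist x y := by
  unfold Pre
  split_ifs
  · simpa using (good_PP _ _).1 x y
  · simp

theorem Pre_dep {l : ℕ} {x y : MM E} (h : ∀ n < l, x n = y n) (a : ℕ) : Pre l a x = Pre l a y := by
  unfold Pre
  split_ifs with ha
  exacts [(good_PP _ _).2.1 x y fun n hn => h n (hn.trans_lt ha), rfl]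

theorem Pre_bdd (l a : ℕ) : ∃ B, ∀ x : MM E, |Pre l a x| ≤ B := by
  unfold Pre
  split_ifs
  exacts [(good_PP _ _).2.2, (good_zero 0).2.2]

/-- regions of the system -/
abbrev SS (g : ℝ) (l τ : ℕ) : Set (MM E) := RegQ (Pre l) g l τ

/-- displacement of the system -/
noncomputable abbrev dl (l : ℕ) (x : MM E) : HH E := dlQ (Pre l) l x

/-- triggers of the system -/
noncomputable abbrev trig (g : ℝ) (l τ : ℕ) : MM E → ℝ := trigQ (Pre l) g l τ

theorem Pre_funext {l : ℕ} {x y : MM E} (h : ∀ n ≤ l, x n = y n) :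
    (fun a => Pre l a x) = fun a => Pre l a y := funext (Pre_dep fun n hn => h n hn.le)

theorem SS_dep {g : ℝ} {l τ : ℕ} {x y : MM E} (h : ∀ n ≤ l, x n = y n) (hx : x ∈ SS g l τ) :
    y ∈ SS g l τ := by
  change Reg _ _ _ _ _ at hx ⊢
  rwa [← h l le_rfl, ← Pre_funext h]

theorem SS_margin {g : ℝ} {l τ : ℕ} {x y : MM E} (hx : x ∈ SS g l τ)
    (h : dist x y ≤ sc ((cell l τ).1 - g) / 2) : y ∈ SS (g + 1) l τ :=
  Reg.margin hx ((abs_norm_sub_norm_le _ _).trans (c0_sub_le x y l)) (fun a => Pre_lip l a x y) h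

theorem SS_mono {g g' : ℝ} {l τ : ℕ} (h : g ≤ g') : SS (E := E) g l τ ⊆ SS g' l τ :=
  fun _ hx => Reg.mono hx h

theorem zero_not_mem (g : ℝ) (l τ : ℕ) : (0 : MM E) ∉ SS g l τ := fun h => by
  simpa using h.1

theorem dl_dep {l : ℕ} {x y : MM E} (h : ∀ n ≤ l, x n = y n) : dl l x = dl l y := by
  unfold dl dlQ
  rw [h l le_rfl, Pre_funext h]

theorem norm_dl_le (l : ℕ) (x : MM E) : ‖dl l x‖ ≤ 2 * ‖x l‖ := norm_disp_le (norm_xi _ _ _) _

theorem hotel_aux (l : ℕ) {x y : MM E} (h : ‖y l‖ ≤ ‖x l‖) :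
    |‖((x l).snd + dl l x) - ((y l).snd + dl l y)‖ - ‖x l - y l‖| ≤ dist x y / 2 := by
  have h1 := xi_lip l (norm_nonneg (y l)) h
    ((norm_sub_norm_le _ _).trans (c0_sub_le x y l)) fun a => Pre_lip l a x y
  have h2 := disp_lip (norm_xi l ‖x l‖ fun a => Pre l a x) (norm_xi l ‖y l‖ fun a => Pre l a y)
    (y l)
  rw [← dist_hotel (norm_xi l ‖x l‖ fun a => Pre l a x)]
  refine (abs_norm_sub_norm_le _ _).trans ?_
  unfold dl dlQ
  rw [sub_sub_sub_cancel_left, add_sub_add_left_eq_sub]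
  exact h2.trans (by linarith)

theorem hotel_est (l : ℕ) (x y : MM E) :
    |‖((x l).snd + dl l x) - ((y l).snd + dl l y)‖ - ‖x l - y l‖| ≤ dist x y / 2 := by
  rcases le_total ‖y l‖ ‖x l‖ with h | h
  · exact hotel_aux l h
  · rw [norm_sub_rev, norm_sub_rev (x l), dist_comm]
    exact hotel_aux l h

theorem dl_lip (l : ℕ) (x y : MM E) : ‖dl l x - dl l y‖ ≤ 3 * dist x y := by
  have h1 := (abs_le.1 (hotel_est l x y)).2
  have h2 := c0_sub_le x y l
  have h3 : ‖(x l).snd - (y l).snd‖ ≤ ‖x l - y l‖ := WithLp.norm_snd_le _ (x l - y l)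
  have h4 := norm_sub_le (((x l).snd + dl l x) - ((y l).snd + dl l y)) ((x l).snd - (y l).snd)
  rw [add_sub_add_comm, add_sub_cancel_left, ← add_sub_add_comm] at h4
  linarith [dist_nonneg (x := x) (y := y)]

theorem hotel_onto (y : C0 (HH E)) : ∃ x : MM E, ∀ l, (x l).snd + dl l x = y l := by
  choose G hG using fun (l : ℕ) (x : MM E) =>
    hotel_surj (norm_xi l ‖y l‖ fun a => Pre l a x) (y l)
  have hn : ∀ l x, ‖G l x‖ = ‖y l‖ := fun l x => by
    rw [← norm_hotel (norm_xi l ‖y l‖ fun a => Pre l a x), hG]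
  let xs : ℕ → MM E := fun l => Nat.rec 0 (fun l x => x + sgl l (G l x)) l
  have hxs : ∀ l n, xs l n = if n < l then G n (xs n) else 0 := by
    intro l n
    induction l with
    | zero => rfl
    | succ l ih =>
      change xs l n + sgl l (G l (xs l)) n = _
      rw [ih, sgl_apply]
      rcases lt_trichotomy n l with h | rfl | h
      · rw [if_pos h, if_neg h.ne, if_pos (by omega), add_zero]
      · rw [if_neg (lt_irrefl _), if_pos rfl, if_pos (by omega), zero_add]
      · rw [if_neg (by omega), if_neg h.ne', if_neg (by omega), add_zero]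
  refine ⟨c0mk (fun l => G l (xs l)) ?_, fun l => ?_⟩
  · rw [tendsto_zero_iff_norm_tendsto_zero]
    simpa only [hn] using tendsto_zero_iff_norm_tendsto_zero.1 (c0_tendsto y)
  · unfold dl dlQ
    rw [c0mk_apply, hn, funext (Pre_dep (y := xs l) fun n hn => by
      rw [c0mk_apply, hxs, if_pos hn])]
    exact hG l (xs l)

end Crest.Agent.R91
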