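import Crest.Agent.R91.TypeB

/-!
Row 91: sequences with bounded signed sums tend to zero.
-/

set_option autoImplicit false

open Filter Topology TopologicalSpace
open scoped InnerProductSpace

namespace Crest.Agent.R91

variable {E : Type} [NormedAddCommGroup E] [InnerProductSpace ℝ E] [CompleteSpace E]
  [SeparableSpace E]

theorem hat_zero (y : YY E) : hat (0 : MM E → ℝ) y = 0 := by
  simpa using hat_smul comb_zero 0 y

theorem ne_zero_of_hat {φ : MM E → ℝ} {y : YY E} {c : ℝ} (hc : 0 < c) (h : c ≤ |hat φ y|) :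
    φ ≠ 0 := by
  rintro rfl
  rw [hat_zero, abs_zero] at h
  linarith

theorem plain {l : ℕ} {φ : MM E → ℝ} (h : ElAt l φ) (y : YY E) {w : YY E} {c : ℝ}
    (hc : c ≤ |hat φ w|) : ∃ ε ε', Sg ε ∧ Sg ε' ∧ c ≤ hat (ε • φ) (y + ε' • w) := by
  obtain ⟨ε, ε', h1, h2, h3⟩ := signs (hat φ y) hc
  refine ⟨ε, ε', h1, h2, ?_⟩
  rw [hat_smul (Comb.el h), map_add, map_smul, smul_eq_mul]
  linarith

theorem Bd.hcase {z : ℕ → YY E} {K : ℝ} (hK : Bd z K) {l : ℕ → ℕ} (hl : Tendsto l UU atTop)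
    {c : ℝ} (hc : 0 < c) (h : ∀ᶠ i in UU, c ≤ ‖Qb (l i) (z i)‖) : False := by
  have hw : ∀ i, ‖Qb (l i) (z i)‖ ≤ K := fun i => (norm_Qb _ _).trans (hK.norm_le i)
  have hK0 : 0 < K := let ⟨i, hi⟩ := h.exists; hc.trans_le (hi.trans (hw i))
  have hu : ∀ i, ‖(4 * K)⁻¹ • Qb (l i) (z i)‖ ≤ 1 / 4 := fun i => by
    rw [norm_smul, Real.norm_of_nonneg (by positivity), inv_mul_le_iff₀ (by positivity)]
    linarith [hw i]
  by_cases hd : ∃ δ > 0, ∀ᶠ i in UU, ∃ τ, δ ≤ ‖proj (near (l i) τ) (Qb (l i) (z i))‖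
  · obtain ⟨δ, hδ, hd⟩ := hd
    obtain ⟨τ, hτ⟩ := hd.choice
    choose m hm using fun i => (denseRange_denseSeq (HH E)).exists_dist_lt
      ((4 * K)⁻¹ • Qb (l i) (z i)) (ε := min (1 / 12) (δ ^ 2 / (8 * K) / K)) (by positivity)
    simp only [lt_min_iff, dist_eq_norm'] at hm
    have h1 : ∀ i, ‖denseSeq (HH E) (m i)‖ ≤ 1 / 3 := fun i => by
      linarith [norm_le_norm_add_norm_sub' (denseSeq (HH E) (m i)) ((4 * K)⁻¹ • Qb (l i) (z i)),
        hu i, (hm i).1]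
    refine hK.tagged (g := 2) (τ := τ) (φ := fun i => hf (l i) (proj (near (l i) (τ i))
      (denseSeq (HH E) (m i)))) (c := δ ^ 2 / (8 * K)) (by positivity) hl (hτ.mono fun i hi =>
        ⟨⟨Or.inl ⟨_, (norm_proj_le _ _).trans (h1 i), rfl⟩, ⟨_, (PP_hf (h1 i)).symm⟩,
          fun x hx => by simpa using hf_supp _ hx⟩, le_trans ?_ (le_abs_self _)⟩)
    set P := proj (near (l i) (τ i)) (Qb (l i) (z i)) with hP
    have h2 : ⟪(4 * K)⁻¹ • Qb (l i) (z i), P⟫_ℝ = (4 * K)⁻¹ * ‖P‖ ^ 2 := by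
      rw [real_inner_smul_left, real_inner_comm, hP, inner_proj_self]
    have h3 := abs_real_inner_le_norm (denseSeq (HH E) (m i) - (4 * K)⁻¹ • Qb (l i) (z i)) P
    have h4 : ‖denseSeq (HH E) (m i) - (4 * K)⁻¹ • Qb (l i) (z i)‖ * ‖P‖ ≤ δ ^ 2 / (8 * K) :=
      (mul_le_mul (hm i).2.le ((norm_proj_le _ _).trans (hw i)) (norm_nonneg _)
        (by positivity)).trans_eq (div_mul_cancel₀ _ hK0.ne')
    have h5 : 2 * (δ ^ 2 / (8 * K)) ≤ (4 * K)⁻¹ * ‖P‖ ^ 2 :=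
      le_trans (le_of_eq (by field_simp; ring)) (mul_le_mul_of_nonneg_left
        (pow_le_pow_left₀ hδ.le hi 2) (by positivity))
    rw [inner_sub_left, h2] at h3
    rw [hat_hf, inner_proj]
    linarith [(abs_le.1 h3).1]
  · refine hK.generic (fun F => ∃ M' < 1, Lip M' F) (M := 1) (c := (4 * K)⁻¹ * c ^ 2)
      (by positivity) one_pos ⟨0, one_pos, fun x y => by simp⟩ (fun F ⟨_, h1, h2⟩ => h2.mono h1.le)
      fun F y ⟨M', h1, h2⟩ => ?_
    have h3 := Ultrafilter.eventually_not.2 fun h3 =>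
      hd ⟨K * (1 - M') / 6, by have := sub_pos.2 h1; positivity, h3⟩
    filter_upwards [h, h3] with i h4 h5
    have he : ElAt (l i) (hf (l i) ((4 * K)⁻¹ • Qb (l i) (z i))) :=
      Or.inl ⟨_, (hu i).trans (by norm_num), rfl⟩
    obtain ⟨ε, ε', h6, h7, h8⟩ := plain he y (w := z i) (c := (4 * K)⁻¹ * c ^ 2) (by
      rw [hat_hf, real_inner_smul_left, real_inner_self_eq_norm_sq]
      exact le_trans (by gcongr) (le_abs_self _))
    refine ⟨_, ε', h7, Comb.sg he h6, ⟨M' + (1 - M') / 2, by linarith, fun a b => ?_⟩, h8⟩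
    have h9 := (((hf_local (l i) fun τ => (not_le.1 fun h => h5 ⟨τ, h⟩).le).smul
      (4 * K)⁻¹).smul ε) a b
    rw [h6.abs, one_mul, abs_of_pos (a := (4 * K)⁻¹) (by positivity),
      show (4 * K)⁻¹ * (12 * (K * (1 - M') / 6)) = (1 - M') / 2 by field_simp; ring,
      show (4 * K)⁻¹ • hf (l i) (Qb (l i) (z i)) = hf (l i) ((4 * K)⁻¹ • Qb (l i) (z i)) from
        funext fun x => (real_inner_smul_left _ _ _).symm] at h9
    rw [Pi.add_apply, Pi.add_apply, add_sub_add_comm, add_mul]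
    exact (abs_add_le _ _).trans (add_le_add (h2 a b) h9)

theorem Bd.fixed {z : ℕ → YY E} {K : ℝ} (hK : Bd z K) {l : ℕ} {p : ℕ → ℕ × ℕ × ℕ × ℤ} {c : ℝ}
    (hc : 0 < c) (h : ∀ᶠ i in UU, c ≤ |hat (PP l (.inr (.inr (p i)))) (z i)|) : False := by
  rcases nat_dich fun i => (p i).1 with ⟨τ, hτ⟩ | hτ
  · obtain ⟨a, ha⟩ := fin_const (scalar_finite (E := E) l τ)
      ((hτ.and h).mono fun i hi => ⟨hi.1, ne_zero_of_hat hc hi.2⟩)
    obtain ⟨i, ⟨h1, h2⟩, h3⟩ := ((h.and ha).and (hK.hilbert (hat (PP l (.inr (.inr a)))) hc)).exists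
    rw [h2] at h1
    exact absurd h3 (not_lt.2 h1)
  refine hK.generic (fun F => Lip 2 F ∧ ∃ U : Set ℕ, U.Finite ∧ ∀ x y : MM E,
    (∀ t ∈ U, y ∉ SS l l t) → |F x| ≤ dist x y) hc one_pos ⟨fun x y => by simp, ∅,
      Set.finite_empty, fun x y _ => by simp⟩ (fun F h => h.1) fun F y ⟨h1, U, h2, h3⟩ => ?_
  have h4 := (h2.biUnion fun t _ => reg_finite l l t).eventually_cofinite_notMem
  rw [Nat.cofinite_eq_atTop] at h4
  filter_upwards [h, hτ.eventually h4] with i h5 h6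
  obtain ⟨⟨h7, -⟩, -, -, h8⟩ := PP_scalar (ne_zero_of_hat hc h5)
  have he : ElAt l (PP (E := E) l (.inr (.inr (p i)))) := Or.inr ⟨_, rfl⟩
  obtain ⟨ε, ε', h9, h10, h11⟩ := plain he y h5
  set ψ := ε • PP (E := E) l (.inr (.inr (p i)))
  have hψ : ∀ a b, |ψ a - ψ b| ≤ dist a b := fun a b => by
    simpa only [h9.abs, one_mul] using he.lip.smul ε a b
  have hS : ∀ x, ψ x ≠ 0 → x ∈ SS l l (p i).1 := fun x hx =>
    SS_mono (Nat.cast_le.2 h7) (h8 x (right_ne_zero_of_mul hx))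
  have hd : ∀ x ∈ SS (E := E) l l (p i).1, ∀ t ∈ U, x ∉ SS l l t := fun x hx t ht hx' =>
    h6 (Set.mem_biUnion ht ⟨_, _, hx', hx⟩)
  have h0 : ∀ x ∈ SS (E := E) l l (p i).1, F x = 0 := fun x hx => by
    simpa using h3 x x (hd x hx)
  refine ⟨ψ, ε', h10, Comb.sg he h9, ⟨lip_glue h1 hS fun a ha b => ?_, insert (p i).1 U,
    h2.insert _, fun a b hb => ?_⟩, h11⟩
  · have h12 := h3 b a (hd a ha)
    rw [Pi.add_apply, Pi.add_apply, add_sub_add_comm, h0 a ha, zero_sub]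
    refine (abs_add_le _ _).trans ?_
    rw [abs_neg]
    linarith [hψ a b, dist_comm a b]
  · by_cases ha : ψ a = 0
    · rw [Pi.add_apply, ha, add_zero]
      exact h3 a b fun t ht => hb t (Or.inr ht)
    · have h12 := hψ a b
      rw [not_not.1 (mt (hS b) (hb _ (Or.inl rfl))), sub_zero] at h12
      rwa [Pi.add_apply, h0 a (hS a ha), zero_add]

theorem Bd.el_null {z : ℕ → YY E} {K : ℝ} (hK : Bd z K) {c : ℝ} (hc : 0 < c) :
    ∀ᶠ i in UU, ∀ l φ, ElAt l φ → |hat φ (z i)| ≤ c := by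
  by_contra h
  have h1 : ∀ᶠ i in UU, (∃ l, c ≤ ‖Qb l (z i)‖) ∨
      ∃ a : ℕ × ℕ × ℕ × ℕ × ℤ, c ≤ |hat (PP a.1 (.inr (.inr a.2))) (z i)| := by
    filter_upwards [Ultrafilter.eventually_not.2 h] with i hi
    push Not at hi
    obtain ⟨l, φ, ⟨θ, h1, rfl⟩ | ⟨p, rfl⟩, h2⟩ := hi
    · rw [hat_hf] at h2
      exact Or.inl ⟨l, by
        nlinarith [abs_real_inner_le_norm θ (Qb l (z i)), norm_nonneg (Qb l (z i))]⟩
    · exact Or.inr ⟨(l, p), h2.le⟩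
  rcases Ultrafilter.eventually_or.1 h1 with h2 | h2
  · obtain ⟨l, hl⟩ := h2.choice
    rcases nat_dich l with ⟨a, ha⟩ | ha
    · obtain ⟨i, ⟨h1, h2⟩, h3⟩ := ((hl.and ha).and (hK.hilbert (Qb a) hc)).exists
      rw [h2] at h1
      exact absurd h3 (not_lt.2 h1)
    · exact hK.hcase ha hc hl
  · obtain ⟨a, ha⟩ := h2.choice
    rcases nat_dich fun i => (a i).1 with ⟨l, hl⟩ | hl
    · exact hK.fixed (l := l) (p := fun i => (a i).2) hc
        ((ha.and hl).mono fun i hi => hi.2 ▸ hi.1)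
    obtain ⟨n, hn⟩ := pow_unbounded_of_one_lt (K / c) (one_lt_two (α := ℝ))
    refine hK.tagged (g := 2 * n) (τ := fun i => (a i).2.1) hc hl (ha.mono fun i hi => ⟨?_, hi⟩)
    obtain ⟨-, h3, -, h4⟩ := PP_scalar (ne_zero_of_hat hc hi)
    refine ⟨Or.inr ⟨_, rfl⟩, ⟨_, rfl⟩, fun x hx => SS_mono (Nat.cast_le.2 ?_) (h4 x hx)⟩
    by_contra h5
    have h6 := hat_lip_le (n := n) (Or.inr ⟨_, rfl⟩) (h3.mono
      (pow_le_pow_of_le_one (by norm_num) (by norm_num) (by omega))) (z i)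
    have h7 := mul_le_mul_of_nonneg_left hi (show (0 : ℝ) ≤ 2 ^ n by positivity)
    linarith [hK.norm_le i, (div_lt_iff₀ hc).1 hn]

theorem Bd.null {z : ℕ → YY E} {K : ℝ} (hK : Bd z K) {c : ℝ} (hc : 0 < c) :
    ∀ᶠ i in UU, ‖z i‖ < c := by
  filter_upwards [hK.el_null (c := c / 4) (by positivity), hK.hump RR (fun n η hη =>
    (hK.el_null (c := η / 2 ^ n) (by positivity)).mono fun i hi =>
      (norm_coord_le (by positivity) hi n).trans_eq (mul_div_cancel₀ _ (by positivity))) hc]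
    with i h1 h2
  rw [norm_Y]
  exact max_lt (by linarith [norm_Q_le (by positivity) h1]) h2

theorem bd_c0 {V W : Type} [NormedAddCommGroup V] [NormedSpace ℝ V] [NormedAddCommGroup W]
    [NormedSpace ℝ W] (T : C0 V →L[ℝ] W) (v : V) : Bd (fun i => T (sgl i v)) (‖T‖ * ‖v‖) := by
  intro N y h
  suffices h : ∃ w : C0 V, y = T w ∧ (∀ n, ‖w n‖ ≤ ‖v‖) ∧ ∀ n, N ≤ n → w n = 0 by
    obtain ⟨w, rfl, h1, -⟩ := h
    exact T.le_opNorm_of_le (c0_norm_le _ (norm_nonneg _) h1)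
  induction h with
  | zero => exact ⟨0, (map_zero T).symm, fun n => by simp, fun _ _ => rfl⟩
  | @step N i y ε _ h1 h2 ih =>
    obtain ⟨w, rfl, h3, h4⟩ := ih
    have e : ∀ n, (w + ε • sgl i v) n = w n + ε • if n = i then v else 0 := fun n => rfl
    refine ⟨w + ε • sgl i v, by rw [map_add, map_smul], fun n => ?_, fun n hn => ?_⟩
    · rw [e]
      split_ifs with h5
      · rw [h4 n (h5 ▸ h1), zero_add, norm_smul, Real.norm_eq_abs, h2.abs, one_mul]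
      · simpa using h3 n
    · rw [e, if_neg (by omega), h4 n (by omega), smul_zero, add_zero]

theorem no_c0 {V : Type} [NormedAddCommGroup V] [NormedSpace ℝ V] {v : V} (hv : v ≠ 0)
    (T : C0 V →L[ℝ] YY E) {C : ℝ} (h : ∀ w, ‖w‖ ≤ C * ‖T w‖) : False := by
  have h0 := norm_pos_iff.2 hv
  obtain ⟨i, hi⟩ := ((bd_c0 T v).null (c := ‖v‖ / (|C| + 1)) (by positivity)).exists
  have h1 := h (sgl i v)
  rw [norm_sgl] at h1
  rw [lt_div_iff₀ (by positivity)] at hi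
  nlinarith [norm_nonneg (T (sgl i v)), le_abs_self C]

theorem sub_embed {X Y : Type} [NormedAddCommGroup X] [NormedSpace ℝ X] [NormedAddCommGroup Y]
    [NormedSpace ℝ Y] {S : Submodule ℝ Y} (e : S ≃L[ℝ] X) :
    ∃ (T : X →L[ℝ] Y) (C : ℝ), ∀ w, ‖w‖ ≤ C * ‖T w‖ :=
  ⟨S.subtypeL.comp (e.symm : X →L[ℝ] S), ‖(e : S →L[ℝ] X)‖, fun w => by
    simpa using (e : S →L[ℝ] X).le_opNorm (e.symm w)⟩

theorem no_c0_sub {V : Type} [NormedAddCommGroup V] [NormedSpace ℝ V] {v : V} (hv : v ≠ 0)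
    (S : Submodule ℝ (YY E)) : IsEmpty (S ≃L[ℝ] C0 V) :=
  ⟨fun e => let ⟨T, _, h⟩ := sub_embed e; no_c0 hv T h⟩

theorem prod_embed {X Z Y : Type} [NormedAddCommGroup X] [NormedSpace ℝ X] [NormedAddCommGroup Y]
    [NormedSpace ℝ Y] [NormedAddCommGroup Z] [NormedSpace ℝ Z] (e : (X × Z) ≃L[ℝ] Y) :
    ∃ (T : X →L[ℝ] Y) (C : ℝ), ∀ w, ‖w‖ ≤ C * ‖T w‖ :=
  ⟨(e : (X × Z) →L[ℝ] Y).comp (ContinuousLinearMap.inl ℝ X Z), ‖(e.symm : Y →L[ℝ] (X × Z))‖,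
    fun w => by simpa using (e.symm : Y →L[ℝ] (X × Z)).le_opNorm (e (w, 0))⟩

end Crest.Agent.R91
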