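import Crest.Agent.R91.Space

/-!
Row 91: the bi-Lipschitz bijection.
-/

set_option autoImplicit false

open Filter Topology TopologicalSpace

namespace Crest.Agent.R91

variable {E : Type} [NormedAddCommGroup E]

/-- glue two null sequences -/
noncomputable def glue (e : C0 E) (h : C0 (HH E)) : MM E :=
  c0mk (fun l => WithLp.toLp 2 (e l, h l))
    (((WithLp.prod_continuous_toLp 2 E (HH E)).tendsto (0, 0)).comp
      ((c0_tendsto e).prodMk_nhds (c0_tendsto h)))

theorem glue_upper (e e' : C0 E) (h h' : C0 (HH E)) {D : ℝ} (h1 : dist e e' ≤ D)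
    (h2 : dist h h' ≤ D) : dist (glue e h) (glue e' h') ≤ 3 / 2 * D := by
  have hD : 0 ≤ D := dist_nonneg.trans h1
  refine c0_dist_le _ _ (by positivity) fun l => ?_
  refine (pow_le_pow_iff_left₀ (norm_nonneg _) (by positivity) two_ne_zero).1 ?_
  rw [WithLp.prod_norm_sq_eq_of_L2]
  have h3 := pow_le_pow_left₀ (norm_nonneg _) ((c0_sub_le e e' l).trans h1) 2
  have h4 := pow_le_pow_left₀ (norm_nonneg _) ((c0_sub_le h h' l).trans h2) 2
  exact (add_le_add h3 h4).trans (by nlinarith)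

theorem glue_lower (e e' : C0 E) (h h' : C0 (HH E)) :
    dist e e' ≤ dist (glue e h) (glue e' h') ∧ dist h h' ≤ dist (glue e h) (glue e' h') :=
  ⟨c0_dist_le _ _ dist_nonneg fun l => (WithLp.norm_fst_le _ (glue e h l - glue e' h' l)).trans
    (c0_sub_le _ _ l), c0_dist_le _ _ dist_nonneg fun l =>
    (WithLp.norm_snd_le _ (glue e h l - glue e' h' l)).trans (c0_sub_le _ _ l)⟩

variable [InnerProductSpace ℝ E] [CompleteSpace E] [SeparableSpace E]

/-- the bijection -/
noncomputable def Psi (s : C0 E × YY E) : YY E := s.2 + sig (glue s.1 (QQ s.2))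

theorem Q_Psi (s : C0 E × YY E) (l : ℕ) :
    QQ (Psi s) l = (glue s.1 (QQ s.2) l).snd + dl l (glue s.1 (QQ s.2)) := by
  rw [Psi, map_add]; rfl

theorem R_Psi (s : C0 E × YY E) : RR (Psi s) = RR s.2 + s2 (glue s.1 (QQ s.2)) := by
  rw [Psi, map_add]; rfl

theorem Psi_bounds (s t : C0 E × YY E) :
    1 / 3 * ‖s - t‖ ≤ ‖Psi s - Psi t‖ ∧ ‖Psi s - Psi t‖ ≤ 5 / 2 * ‖s - t‖ := by
  set x := glue s.1 (QQ s.2)
  set y := glue t.1 (QQ t.2)
  have h1 : dist s.1 t.1 ≤ ‖s - t‖ := by rw [dist_eq_norm]; exact norm_fst_le (s - t)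
  have h2 : ‖s.2 - t.2‖ ≤ ‖s - t‖ := norm_snd_le (s - t)
  have h3 : dist x y ≤ 3 / 2 * ‖s - t‖ := glue_upper _ _ _ _ h1 (by
    rw [dist_eq_norm, ← map_sub]; exact (norm_QQ _).trans h2)
  obtain ⟨h4, h5⟩ : dist s.1 t.1 ≤ dist x y ∧ dist (QQ s.2) (QQ t.2) ≤ dist x y :=
    glue_lower _ _ _ _
  have h6 : ∀ l, |‖QQ (Psi s) l - QQ (Psi t) l‖ - ‖x l - y l‖| ≤ dist x y / 2 := fun l => by
    rw [Q_Psi, Q_Psi]; exact hotel_est l x y
  have h7 : RR (Psi s - Psi t) = RR (s.2 - t.2) + (s2 x - s2 y) := by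
    rw [map_sub, map_sub, R_Psi, R_Psi, add_sub_add_comm]
  have h8 := s2_sub x y
  have h9 : dist (QQ (Psi s)) (QQ (Psi t)) = ‖QQ (Psi s - Psi t)‖ := by
    rw [dist_eq_norm, map_sub]
  have hd : 0 ≤ dist x y := dist_nonneg
  constructor
  · have a1 : dist x y ≤ ‖Psi s - Psi t‖ + dist x y / 2 :=
      c0_dist_le _ _ (by positivity) fun l => by
        linarith [(abs_le.1 (h6 l)).1, c0_sub_le (QQ (Psi s)) (QQ (Psi t)) l,
          norm_QQ (Psi s - Psi t)]
    have a2 := norm_sub_le (RR (Psi s - Psi t)) (s2 x - s2 y)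
    rw [h7, add_sub_cancel_right, ← h7] at a2
    rw [dist_eq_norm] at h4
    rw [dist_eq_norm, ← map_sub] at h5
    have a3 := norm_RR (Psi s - Psi t)
    have a4 : ‖s - t‖ ≤ 3 * ‖Psi s - Psi t‖ :=
      max_le (h4.trans (by linarith)) (max_le (h5.trans (by linarith))
        (a2.trans (by linarith)))
    linarith
  · rw [norm_Y]
    refine max_le ?_ ?_
    · rw [← h9]
      refine c0_dist_le _ _ (by positivity) fun l => ?_
      linarith [(abs_le.1 (h6 l)).2, c0_sub_le x y l, norm_nonneg (s - t)]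
    · rw [h7]
      linarith [norm_add_le (RR (s.2 - t.2)) (s2 x - s2 y), norm_RR (s.2 - t.2)]

theorem Psi_surj : Function.Surjective (Psi (E := E)) := fun w => by
  obtain ⟨x, hx⟩ := hotel_onto (QQ w)
  let e : C0 E := c0mk (fun l => (x l).fst) (squeeze_zero_norm (fun l => WithLp.norm_fst_le _ _)
    (tendsto_zero_iff_norm_tendsto_zero.1 (c0_tendsto x)))
  have h : glue e (QQ (w - sig x)) = x := by
    ext l
    have h1 : QQ (w - sig x) l = (x l).snd := by
      rw [map_sub]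
      change QQ w l - dl l x = _
      rw [← hx, add_sub_cancel_right]
    change WithLp.toLp 2 ((x l).fst, QQ (w - sig x) l) = _
    rw [h1]
    rfl
  exact ⟨(e, w - sig x), by rw [Psi, h, sub_add_cancel]⟩

theorem Psi_bij : Function.Bijective (Psi (E := E)) :=
  ⟨fun s t h => by
    have h1 := (Psi_bounds s t).1
    rw [h, sub_self, norm_zero] at h1
    exact sub_eq_zero.1 (norm_le_zero_iff.1 (by linarith)), Psi_surj⟩

end Crest.Agent.R91
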