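import Crest.Agent.R91.Elem

/-!
Row 91: the Banach space and the functionals representing functions.
-/

set_option autoImplicit false

open Filter Topology TopologicalSpace
open scoped InnerProductSpace ENNReal

namespace Crest.Agent.R91

variable {E : Type} [NormedAddCommGroup E] [InnerProductSpace ℝ E] [CompleteSpace E]
  [SeparableSpace E]

/-- combinations of elementary functions with a bound on the mass -/
inductive Comb : ℝ → (MM E → ℝ) → Prop
  | el {l : ℕ} {φ : MM E → ℝ} : ElAt l φ → Comb 1 φ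
  | add {m m' : ℝ} {f f' : MM E → ℝ} : Comb m f → Comb m' f' → Comb (m + m') (f + f')
  | smul (a : ℝ) {m : ℝ} {f : MM E → ℝ} : Comb m f → Comb (|a| * m) (a • f)
  | mono {m m' : ℝ} {f : MM E → ℝ} : Comb m f → m ≤ m' → Comb m' f

theorem Comb.apply_zero {m : ℝ} {f : MM E → ℝ} (h : Comb m f) : f 0 = 0 := by
  induction h with
  | el h => simpa using h.abs_le 0
  | add _ _ h1 h2 => rw [Pi.add_apply, h1, h2, add_zero]
  | smul a _ h => rw [Pi.smul_apply, h, smul_zero]
  | mono _ _ h => exact h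

variable (E) in
/-- the norming families -/
abbrev FF (n : ℕ) : Type := {f : MM E → ℝ // Comb (2 ^ n) f ∧ Lip ((1 / 2) ^ (n + 1)) f}

variable (E) in
/-- bounded functions on a norming family -/
def VV (n : ℕ) : Type := lp (fun _ : FF E n => ℝ) ∞

noncomputable instance (n : ℕ) : NormedAddCommGroup (VV E n) :=
  inferInstanceAs (NormedAddCommGroup (lp (fun _ : FF E n => ℝ) ∞))

noncomputable instance (n : ℕ) : NormedSpace ℝ (VV E n) :=
  inferInstanceAs (NormedSpace ℝ (lp (fun _ : FF E n => ℝ) ∞))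

instance (n : ℕ) : CompleteSpace (VV E n) :=
  inferInstanceAs (CompleteSpace (lp (fun _ : FF E n => ℝ) ∞))

/-- coordinates -/
noncomputable def VV.ev {n : ℕ} (f : FF E n) : VV E n →L[ℝ] ℝ :=
  lp.evalCLM ℝ (fun _ : FF E n => ℝ) ∞ f

theorem VV.ev_le {n : ℕ} (f : FF E n) (v : VV E n) : |VV.ev f v| ≤ ‖v‖ :=
  lp.norm_apply_le_norm (E := fun _ : FF E n => ℝ) (p := ∞) (by simp) v f

theorem VV.norm_le {n : ℕ} (v : VV E n) {C : ℝ} (hC : 0 ≤ C) (h : ∀ f, |VV.ev f v| ≤ C) :
    ‖v‖ ≤ C := lp.norm_le_of_forall_le (E := fun _ : FF E n => ℝ) hC h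

variable (E) in
/-- the ambient space -/
abbrev ZZ : Type := C0 (HH E) × lp (VV E) 1

/-- displacement part -/
noncomputable def s1 (x : MM E) : C0 (HH E) :=
  c0mk (fun l => dl l x) (squeeze_zero_norm (fun l => norm_dl_le l x) (by
    simpa using (tendsto_zero_iff_norm_tendsto_zero.1 (c0_tendsto x)).const_mul 2))

theorem FF.abs_le {n : ℕ} (f : FF E n) (x : MM E) : |f.1 x| ≤ (1 / 2) ^ (n + 1) * dist x 0 := by
  simpa only [f.2.1.apply_zero, sub_zero] using f.2.2 x 0

/-- evaluation on one family -/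
noncomputable def s2n (n : ℕ) (x : MM E) : VV E n :=
  ⟨fun f => f.1 x, memℓp_infty ⟨_, by rintro _ ⟨f, rfl⟩; exact f.abs_le x⟩⟩

theorem summable_half (d : ℝ) : HasSum (fun n : ℕ => (1 / 2 : ℝ) ^ (n + 1) * d) d := by
  have := hasSum_geometric_two.mul_right (1 / 2 * d)
  simp only [← mul_assoc, ← pow_succ] at this
  rwa [show (2 : ℝ) * (1 / 2) = 1 by norm_num, one_mul] at this

/-- evaluation part -/
noncomputable def s2 (x : MM E) : lp (VV E) 1 :=
  ⟨fun n => s2n n x, memℓp_gen (by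
    simp only [ENNReal.toReal_one, Real.rpow_one]
    exact (summable_half (dist x 0)).summable.of_nonneg_of_le (fun _ => norm_nonneg _) fun n =>
      VV.norm_le _ (by positivity) fun f => f.abs_le x)⟩

theorem hasSum_one {V : ℕ → Type} [∀ n, NormedAddCommGroup (V n)] (w : lp V 1) :
    HasSum (fun n => ‖w n‖) ‖w‖ := by
  simpa using lp.hasSum_norm (p := 1) (by norm_num) w

theorem s2_sub (x y : MM E) : ‖s2 x - s2 y‖ ≤ dist x y :=
  hasSum_le (fun n => VV.norm_le _ (by positivity) fun f => f.2.2 x y)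
    (hasSum_one _) (summable_half _)

/-- the embedding in the ambient space -/
noncomputable def sig0 (x : MM E) : ZZ E := (s1 x, s2 x)

variable (E) in
/-- the Banach space -/
noncomputable def YS : Submodule ℝ (ZZ E) :=
  (Submodule.span ℝ (Set.range (sig0 (E := E)))).topologicalClosure

variable (E) in
/-- the Banach space -/
def YY : Type := YS E

noncomputable instance : NormedAddCommGroup (YY E) := inferInstanceAs (NormedAddCommGroup (YS E))

noncomputable instance : NormedSpace ℝ (YY E) := inferInstanceAs (NormedSpace ℝ (YS E))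

theorem isClosed_YS : IsClosed (YS E : Set (ZZ E)) := Submodule.isClosed_topologicalClosure _

instance : CompleteSpace (YY E) := isClosed_YS.completeSpace_coe

/-- first component -/
noncomputable def QQ : YY E →L[ℝ] C0 (HH E) := (ContinuousLinearMap.fst ℝ _ _).comp (YS E).subtypeL

/-- second component -/
noncomputable def RR : YY E →L[ℝ] lp (VV E) 1 :=
  (ContinuousLinearMap.snd ℝ _ _).comp (YS E).subtypeL

theorem norm_Y (y : YY E) : ‖y‖ = max ‖QQ y‖ ‖RR y‖ := rfl

theorem sig0_cont : Continuous (sig0 (E := E)) :=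
  (LipschitzWith.of_dist_le_mul (K := 3) fun x y => by
    refine max_le (c0_dist_le _ _ (by positivity) fun l => dl_lip l x y) ?_
    rw [dist_eq_norm]
    exact (s2_sub x y).trans (le_mul_of_one_le_left dist_nonneg (by norm_num))).continuous

instance : SeparableSpace (YY E) :=
  (((isSeparable_range sig0_cont).span (R := ℝ)).closure).separableSpace

/-- the embedding -/
noncomputable def sig (x : MM E) : YY E :=
  ⟨sig0 x, Submodule.le_topologicalClosure _ (Submodule.subset_span ⟨x, rfl⟩)⟩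

theorem Y_ind (p : Submodule ℝ (YY E)) (hc : IsClosed (p : Set (YY E))) (h : ∀ x, sig x ∈ p)
    (y : YY E) : y ∈ p := by
  have h1 : IsClosed (p.map (YS E).subtype : Set (ZZ E)) :=
    isClosed_YS.isClosedEmbedding_subtypeVal.isClosedMap _ hc
  obtain ⟨y', h2, h3⟩ := Submodule.topologicalClosure_minimal _
    (Submodule.span_le.2 (by rintro _ ⟨x, rfl⟩; exact ⟨sig x, h x, rfl⟩)) h1 y.2
  rwa [← Subtype.ext h3]

open Classical in
/-- the functional representing a function -/
noncomputable def hat (f : MM E → ℝ) : YY E →L[ℝ] ℝ :=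
  if h : ∃ Φ : YY E →L[ℝ] ℝ, ∀ x, Φ (sig x) = f x then h.choose else 0

theorem hat_eq {f : MM E → ℝ} {Φ : YY E →L[ℝ] ℝ} (h : ∀ x, Φ (sig x) = f x) : hat f = Φ := by
  have h1 : ∃ Φ : YY E →L[ℝ] ℝ, ∀ x, Φ (sig x) = f x := ⟨Φ, h⟩
  rw [hat, dif_pos h1]
  ext y
  exact Y_ind (LinearMap.eqLocus (h1.choose : YY E →ₗ[ℝ] ℝ) Φ)
    (isClosed_eq h1.choose.continuous Φ.continuous) (fun x => (h1.choose_spec x).trans (h x).symm) y

theorem norm_QQ (y : YY E) : ‖QQ y‖ ≤ ‖y‖ := le_max_left _ _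

theorem norm_RR (y : YY E) : ‖RR y‖ ≤ ‖y‖ := le_max_right _ _

theorem hat_FF {n : ℕ} (f : FF E n) (y : YY E) : hat f.1 y = VV.ev f (RR y n) := by
  rw [hat_eq (f := f.1) (Φ := (VV.ev f).comp ((lp.evalCLM ℝ (VV E) 1 n).comp RR)) fun x => rfl]
  rfl

theorem hat_le {n : ℕ} {f : MM E → ℝ} (h1 : Comb (2 ^ n) f) (h2 : Lip ((1 / 2) ^ (n + 1)) f)
    (y : YY E) : |hat f y| ≤ ‖y‖ := by
  rw [hat_FF ⟨f, h1, h2⟩]
  exact (VV.ev_le _ _).trans
    ((lp.norm_apply_le_norm (by simp) (RR y) n).trans (norm_RR y))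

omit [InnerProductSpace ℝ E] [CompleteSpace E] [SeparableSpace E] in
theorem Lip.smul {C : ℝ} {f : MM E → ℝ} (h : Lip C f) (a : ℝ) : Lip (|a| * C) (a • f) :=
  fun x y => by
    rw [Pi.smul_apply, Pi.smul_apply, ← smul_sub, smul_eq_mul, abs_mul, mul_assoc]
    exact mul_le_mul_of_nonneg_left (h x y) (abs_nonneg _)

theorem Comb.rep {m : ℝ} {f : MM E → ℝ} (h : Comb m f) (x : MM E) : hat f (sig x) = f x := by
  induction h generalizing x with
  | @el l φ h =>
    let f : FF E 0 := ⟨(1 / 2 : ℝ) • φ, ((Comb.el h).smul _).mono (by norm_num [abs_of_pos]),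
      (h.lip.smul _).mono (by norm_num [abs_of_pos])⟩
    have key : ∀ x, ((2 : ℝ) • hat f.1) (sig x) = φ x := fun x => by
      rw [smul_apply, hat_FF]
      change 2 * (1 / 2 * φ x) = _
      ring
    rw [hat_eq key, key]
  | @add m m' f f' _ _ h1 h2 =>
    have key : ∀ x, (hat f + hat f') (sig x) = (f + f') x := fun x => by
      rw [add_apply, h1, h2, Pi.add_apply]
    rw [hat_eq key, key]
  | @smul a m f _ h =>
    have key : ∀ x, (a • hat f) (sig x) = (a • f) x := fun x => by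
      rw [smul_apply, h, Pi.smul_apply]
    rw [hat_eq key, key]
  | mono _ _ h => exact h x

theorem hat_add {m m' : ℝ} {f f' : MM E → ℝ} (h : Comb m f) (h' : Comb m' f') (y : YY E) :
    hat (f + f') y = hat f y + hat f' y := by
  rw [hat_eq (Φ := hat f + hat f') fun x => by
    rw [add_apply, h.rep, h'.rep, Pi.add_apply]]
  rfl

theorem hat_smul {m : ℝ} {f : MM E → ℝ} (h : Comb m f) (a : ℝ) (y : YY E) :
    hat (a • f) y = a * hat f y := by
  rw [hat_eq (Φ := a • hat f) fun x => by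
    rw [smul_apply, h.rep, Pi.smul_apply]]
  rfl

theorem Comb.hat_le {m s : ℝ} {f : MM E → ℝ} (h : Comb m f) {y : YY E} (hs : 0 ≤ s)
    (hy : ∀ l φ, ElAt l φ → |hat φ y| ≤ s) : |hat f y| ≤ m * s := by
  induction h with
  | el h => simpa using hy _ _ h
  | add h h' h1 h2 => rw [hat_add h h', add_mul]; exact (abs_add_le _ _).trans (add_le_add h1 h2)
  | smul a h h1 =>
    rw [hat_smul h, abs_mul, mul_assoc]
    exact mul_le_mul_of_nonneg_left h1 (abs_nonneg _)
  | mono _ hm h1 => exact h1.trans (mul_le_mul_of_nonneg_right hm hs)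

theorem norm_coord_le {s : ℝ} {y : YY E} (hs : 0 ≤ s) (hy : ∀ l φ, ElAt l φ → |hat φ y| ≤ s)
    (n : ℕ) : ‖RR y n‖ ≤ 2 ^ n * s :=
  VV.norm_le _ (by positivity) fun f => by
    rw [← hat_FF]; exact f.2.1.hat_le hs hy

theorem hat_lip_le {l : ℕ} {φ : MM E → ℝ} (h : ElAt l φ) {n : ℕ}
    (hl : Lip ((1 / 2) ^ (2 * n + 1)) φ) (y : YY E) : 2 ^ n * |hat φ y| ≤ ‖y‖ := by
  have h0 : |(2 : ℝ) ^ n| = 2 ^ n := abs_of_pos (by positivity)
  have := hat_le (n := n) (((Comb.el h).smul (2 ^ n)).mono (by rw [h0, mul_one]))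
    ((hl.smul _).mono (le_of_eq (by
      rw [h0, show 2 * n + 1 = n + (n + 1) by ring, pow_add, ← mul_assoc, ← mul_pow]
      norm_num))) y
  rwa [hat_smul (Comb.el h), abs_mul, h0] at this

theorem hat_el_le {l : ℕ} {φ : MM E → ℝ} (h : ElAt l φ) (y : YY E) : |hat φ y| ≤ 2 * ‖y‖ := by
  have := hat_le (n := 0) (((Comb.el h).smul (1 / 2)).mono (by norm_num [abs_of_pos]))
    ((h.lip.smul _).mono (by norm_num [abs_of_pos])) y
  rw [hat_smul (Comb.el h), abs_mul, abs_of_pos (by norm_num : (0 : ℝ) < 1 / 2)] at this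
  linarith

/-- evaluation of null sequences -/
noncomputable def evC {V : Type} [NormedAddCommGroup V] [NormedSpace ℝ V] (l : ℕ) :
    C0 V →L[ℝ] V :=
  LinearMap.mkContinuous
    { toFun := fun y => y l, map_add' := fun _ _ => rfl, map_smul' := fun _ _ => rfl } 1
    fun y => (c0_apply_le y l).trans (one_mul _).ge

/-- the block of the first component -/
noncomputable def Qb (l : ℕ) : YY E →L[ℝ] HH E := (evC l).comp QQ

theorem norm_Qb (l : ℕ) (y : YY E) : ‖Qb l y‖ ≤ ‖y‖ := (c0_apply_le (QQ y) l).trans (norm_QQ y)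

theorem hat_hf (l : ℕ) (θ : HH E) (y : YY E) : hat (hf l θ) y = ⟪θ, Qb l y⟫_ℝ := by
  rw [hat_eq (f := hf l θ) (Φ := (innerSL ℝ θ).comp (Qb l)) fun x => rfl]
  rfl

theorem norm_Q_le {s : ℝ} {y : YY E} (hs : 0 ≤ s) (hy : ∀ l φ, ElAt l φ → |hat φ y| ≤ s) :
    ‖QQ y‖ ≤ 3 * s := by
  refine c0_norm_le _ (by positivity) fun l => ?_
  change ‖Qb l y‖ ≤ _
  rcases (norm_nonneg (Qb l y)).eq_or_lt with h | h
  · rw [← h]; positivity
  have h1 := hy l _ (Or.inl ⟨(3 * ‖Qb l y‖)⁻¹ • Qb l y, by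
    rw [norm_smul, norm_inv, Real.norm_of_nonneg (by positivity)]
    exact le_of_eq (by field_simp), rfl⟩)
  rw [hat_hf, real_inner_smul_left, real_inner_self_eq_norm_sq,
    show (3 * ‖Qb l y‖)⁻¹ * ‖Qb l y‖ ^ 2 = ‖Qb l y‖ / 3 by field_simp] at h1
  linarith [le_abs_self (‖Qb l y‖ / 3)]

theorem hat_late (y : YY E) {ε : ℝ} (hε : 0 < ε) :
    ∀ᶠ l in atTop, ∀ φ, ElAt l φ → |hat φ y| ≤ ε := by
  let p : Submodule ℝ (YY E) :=
    { carrier := {y | ∀ ε > 0, ∀ᶠ l in atTop, ∀ φ, ElAt l φ → |hat φ y| ≤ ε}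
      zero_mem' := fun ε hε => Eventually.of_forall fun l φ _ => by simpa using hε.le
      add_mem' := fun {a b} ha hb ε hε => by
        filter_upwards [ha _ (half_pos hε), hb _ (half_pos hε)] with l h1 h2 φ h
        rw [map_add]
        linarith [abs_add_le (hat φ a) (hat φ b), h1 φ h, h2 φ h]
      smul_mem' := fun c a ha ε hε => by
        filter_upwards [ha (ε / (|c| + 1)) (by positivity)] with l h1 φ h
        have h2 := (le_div_iff₀ (by positivity)).1 (h1 φ h)
        rw [map_smul, smul_eq_mul, abs_mul]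
        nlinarith [abs_nonneg (hat φ a)] }
  refine Y_ind p (isClosed_of_closure_subset fun a ha ε hε => ?_) (fun x ε hε => ?_) y ε hε
  · obtain ⟨b, hb, h1⟩ := Metric.mem_closure_iff.1 ha (ε / 4) (by positivity)
    filter_upwards [hb _ (half_pos hε)] with l h2 φ h
    have h3 := hat_el_le h (a - b)
    rw [map_sub, ← dist_eq_norm] at h3
    linarith [abs_sub_abs_le_abs_sub (hat φ a) (hat φ b), h2 φ h]
  · filter_upwards [c0_small x hε] with l h1 φ h
    rw [(Comb.el h).rep]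
    exact (h.abs_le x).trans h1

end Crest.Agent.R91
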