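import Crest.Agent.R91.Grow

/-!
Row 91: gluing lemmas and the case of non-decreasing scales.
-/

set_option autoImplicit false

open Filter Topology TopologicalSpace

namespace Crest.Agent.R91

variable {E : Type} [NormedAddCommGroup E]

theorem lip_glue {G ψ : MM E → ℝ} {S : Set (MM E)} {M : ℝ} (hG : Lip M G)
    (hS : ∀ x, ψ x ≠ 0 → x ∈ S)
    (h : ∀ x ∈ S, ∀ y, |(G + ψ) x - (G + ψ) y| ≤ M * dist x y) : Lip M (G + ψ) := fun x y => by
  by_cases hx : x ∈ S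
  · exact h x hx y
  by_cases hy : y ∈ S
  · rw [abs_sub_comm, dist_comm]; exact h y hy x
  rw [Pi.add_apply, Pi.add_apply, not_not.1 (mt (hS x) hx), not_not.1 (mt (hS y) hy), add_zero,
    add_zero]
  exact hG x y

theorem amp_glue {F : MM E → ℝ} {M M' L μ : ℝ} (hF : Lip M' F) (h1 : M' < M) (h2 : L < M)
    (hμ : 0 < μ) : ∃ δ > 0, ∃ M'' < M, ∀ (ψ : MM E → ℝ) (S : Set (MM E)),
      (∀ x, ψ x ≠ 0 → x ∈ S) → (∀ x, |ψ x| ≤ δ) →
      (∀ x ∈ S, ∀ y, dist x y < μ → |(F + ψ) x - (F + ψ) y| ≤ L * dist x y) →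
      Lip M'' (F + ψ) := by
  refine ⟨μ * (M - M') / 4, by have := sub_pos.2 h1; positivity, max L ((M + M') / 2),
    max_lt h2 (by linarith), fun ψ S h3 h4 h5 => ?_⟩
  refine lip_glue (hF.mono (le_max_of_le_right (by linarith))) h3 fun x hx y => ?_
  rcases lt_or_ge (dist x y) μ with h | h
  · exact (h5 x hx y h).trans (mul_le_mul_of_nonneg_right (le_max_left _ _) dist_nonneg)
  · refine le_trans ?_ (mul_le_mul_of_nonneg_right (le_max_right _ _) dist_nonneg)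
    rw [Pi.add_apply, Pi.add_apply, add_sub_add_comm]
    refine (abs_add_le _ _).trans ?_
    nlinarith [hF x y, abs_sub (ψ x) (ψ y), h4 x, h4 y]

variable [InnerProductSpace ℝ E] [CompleteSpace E] [SeparableSpace E]

theorem trig_full' {g g' : ℝ} {l τ : ℕ} {x : MM E} (h : x ∈ SS g l τ) (hg : g' = g + 1) :
    trig g' l τ x = sc ((cell l τ).1 - g') := by
  rw [hg]; exact trig_full h

/-- elementary functions living on one region -/
structure Tag (g : ℝ) (l τ : ℕ) (φ : MM E → ℝ) : Prop where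
  el : ElAt l φ
  pp : ∃ i, φ = PP l i
  supp : ∀ x, φ x ≠ 0 → x ∈ SS g l τ

theorem Tag.amp {g : ℝ} {l τ : ℕ} {φ : MM E → ℝ} (h : Tag g l τ φ) (x : MM E) :
    |φ x| ≤ sc ((cell l τ).1 + g) := by
  by_cases hx : φ x = 0
  · rw [hx, abs_zero]; exact (sc_pos _).le
  · exact (h.el.abs_le x).trans (Reg.upper (h.supp x hx))

theorem Hs.sg {F φ : MM E → ℝ} (h : Hs F) {g : ℝ} {l τ : ℕ} (ht : Tag g l τ φ) {ε : ℝ}
    (hε : Sg ε) : Hs (F + ε • φ) := by
  obtain ⟨i, rfl⟩ := ht.pp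
  rcases hε with rfl | rfl
  · simpa using h.add 1 l i
  · simpa using h.add (-1) l i

theorem full_le {k g C : ℝ} (hC : sc (2 * g) ≤ C) : sc (k + g) ≤ C * sc (k - g) := by
  rw [show k + g = 2 * g + (k - g) by ring, sc_add]
  exact mul_le_mul_of_nonneg_right hC (sc_pos _).le

theorem hat_corr {l : ℕ} {p : ℕ × ℕ × ℕ × ℤ} {D : ℕ} {y : YY E} {η : ℝ}
    (h : ∀ φ, ElAt l φ → |hat φ y| ≤ η) :
    -(D * η) ≤ hat ((D : ℝ) • PP l (.inr (.inr p))) y := by
  rw [hat_smul (Comb.el (Or.inr ⟨p, rfl⟩)), ← mul_neg]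
  exact mul_le_mul_of_nonneg_left (abs_le.1 (h _ (Or.inr ⟨p, rfl⟩))).1 D.cast_nonneg

theorem comb_corr (l : ℕ) (p : ℕ × ℕ × ℕ × ℤ) (D : ℕ) :
    Comb D ((D : ℝ) • PP (E := E) l (.inr (.inr p))) := by
  simpa using (Comb.el (Or.inr ⟨p, rfl⟩)).smul (D : ℝ)

theorem stepA {g : ℝ} {l τ : ℕ} {F φ : MM E → ℝ} {C ε : ℝ} (hC : sc (2 * (g + 2)) ≤ C)
    (hg : 0 ≤ g) (ht : Tag g l τ φ) (hε : Sg ε) (hF : Lip (4 * C) F)
    (hA : ∀ x, |F x| ≤ sc ((cell l τ).1 + (g + 2))) :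
    Lip (4 * C) (F + corr F (trig (g + 2) l τ) (sc ((cell l τ).1 + (g + 2))) 0 C + ε • φ) ∧
    ∀ x, |(F + corr F (trig (g + 2) l τ) (sc ((cell l τ).1 + (g + 2))) 0 C + ε • φ) x| ≤
      sc ((cell l τ).1 + (g + 2)) := by
  set A := sc ((cell l τ).1 + (g + 2)) with hA0
  set G := F + corr F (trig (g + 2) l τ) A 0 C
  have hC1 : 1 ≤ C := le_trans (by rw [sc]; exact Real.one_le_exp (by linarith)) hC
  have e : ∀ x, G x = clip (F x) (max (A - C * trig (g + 2) l τ x) 0) := fun x => by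
    change F x + (_ - _) = _
    rw [sub_zero, clip_self (hA x), add_sub_cancel]
  have h0 : ∀ x ∈ SS (g + 1) l τ, G x = 0 := fun x hx =>
    corr_of_full (by rw [trig_full' hx (by ring)]; exact full_le hC) (by simpa using hA x)
  have hS : ∀ x, (ε • φ) x ≠ 0 → x ∈ SS g l τ := fun x hx =>
    ht.supp x (right_ne_zero_of_mul hx)
  have hb : ∀ x, |(G + ε • φ) x| ≤ A := fun x => by
    by_cases hx : (ε • φ) x = 0
    · rw [Pi.add_apply, hx, add_zero, e]
      exact (abs_clip_le _ (le_max_right _ _)).trans (hA x)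
    · rw [Pi.add_apply, h0 x (SS_mono (by linarith) (hS x hx)), zero_add, Pi.smul_apply,
        smul_eq_mul, abs_mul, hε.abs, one_mul]
      exact (ht.amp x).trans (sc_mono (by linarith))
  refine ⟨lip_glue (fun x y => ?_) hS fun x hx y => ?_, hb⟩
  · rw [e, e]
    refine (clip_lip _ _ _ _).trans (max_le (hF x y)
      ((clipW_sub (by linarith) (trig_lip _ _ _) x y).trans ?_))
    exact mul_le_mul_of_nonneg_right (by linarith) dist_nonneg
  · by_cases hy : y ∈ SS (g + 1) l τ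
    · rw [Pi.add_apply, Pi.add_apply, h0 x (SS_mono (by linarith) hx), h0 y hy, zero_add,
        zero_add]
      exact (ht.el.lip.smul ε).mono (by rw [hε.abs]; linarith) x y
    · have h1 := not_le.1 (mt (SS_margin hx) hy)
      have h2 := full_le (k := (cell l τ).1) hC
      have h3 := sc_mono (show ((cell l τ).1 : ℝ) - (g + 2) ≤ (cell l τ).1 - g by linarith)
      nlinarith [abs_sub ((G + ε • φ) x) ((G + ε • φ) y), hb x, hb y]

theorem Bd.typeA {z : ℕ → YY E} {K : ℝ} (hK : Bd z K) {g : ℕ} {l τ : ℕ → ℕ}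
    {φ : ℕ → MM E → ℝ} {c : ℝ} (hc : 0 < c) (hl : Tendsto l UU atTop)
    (h : ∀ᶠ i in UU, Tag g (l i) (τ i) (φ i) ∧ c ≤ |hat (φ i) (z i)|)
    (hk : ∀ᶠ i in UU, ∀ᶠ j in UU, (cell (l i) (τ i)).1 ≤ (cell (l j) (τ j)).1) : False := by
  obtain ⟨C, hC⟩ := exists_nat_ge (sc (2 * ((g : ℝ) + 2)))
  obtain ⟨D, hD⟩ := corr_avail (E := E) (g + 2) C (M := 4 * C) (by positivity)
  push_cast at hD
  refine hK.generic (fun F => Hs F ∧ Lip (4 * C) F ∧
    ∀ᶠ i in UU, ∀ x, |F x| ≤ sc ((cell (l i) (τ i)).1 + (g + 2))) (D := D + 1) (half_pos hc)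
    (by positivity) ⟨Hs.zero, fun x y => by simp only [Pi.zero_apply, sub_self, abs_zero]; positivity,
      Eventually.of_forall fun i x => by simpa using (sc_pos _).le⟩ (fun F h => h.2.1)
    fun F y ⟨h1, h2, h3⟩ => ?_
  filter_upwards [h, hk, h3, hl.eventually (hD F h1 h2),
    hl.eventually (hat_late y (ε := c / 2 / (D + 1)) (by positivity))] with i ⟨ht, h4⟩ h5 h6 h7 h8
  obtain ⟨p, hp⟩ := h7 (τ i) 0 ⟨0, by simpa using h6 0⟩
  rw [Int.cast_zero, zero_mul] at hp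
  obtain ⟨ε', ε, h9, h10, h11⟩ := signs (hat ((D : ℝ) • PP (l i) (.inr (.inr p))) (z i)) h4
  obtain ⟨h12, h13⟩ := stepA hC g.cast_nonneg ht h10 h2 h6
  rw [hp, add_assoc] at h12 h13
  refine ⟨_, ε', h9, (comb_corr _ p D).add (Comb.sg ht.el h10), ⟨?_, h12, h5.mono fun j hj x =>
    (h13 x).trans (sc_mono (by simpa using hj))⟩, ?_⟩
  · rw [← add_assoc]
    exact (h1.add D _ _).sg ht h10
  · have h14 := hat_corr (p := p) (D := D) h8
    have h15 : |ε * hat (φ i) y| ≤ c / 2 / (D + 1) := by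
      rw [abs_mul, h10.abs, one_mul]; exact h8 _ ht.el
    have h16 : (D + 1) * (c / 2 / (D + 1)) = c / 2 := by field_simp
    rw [hat_add (comb_corr _ p D) (Comb.sg ht.el h10), hat_smul (Comb.el ht.el), map_add, map_add,
      map_smul, map_smul, smul_eq_mul, smul_eq_mul]
    linarith [(abs_le.1 h15).1]

end Crest.Agent.R91
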