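import Crest.Agent.R91.TypeA

/-!
Row 91: the case of scales tending to zero.
-/

set_option autoImplicit false

open Filter Topology TopologicalSpace

namespace Crest.Agent.R91

theorem sc_small {k : ℕ → ℤ} (hk : Tendsto k UU atBot) (t : ℝ) {δ : ℝ} (hδ : 0 < δ) :
    ∀ᶠ i in UU, sc (k i + t) ≤ δ :=
  (Real.tendsto_exp_atBot.comp ((tendsto_atBot_add_const_right _ t
    (tendsto_intCast_atBot_iff.2 hk)).const_mul_atBot (by norm_num))).eventually_le_const hδ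

variable {E : Type} [NormedAddCommGroup E] [InnerProductSpace ℝ E] [CompleteSpace E]
  [SeparableSpace E]

theorem osc {l τ : ℕ → ℕ} (hl : Tendsto l UU atTop)
    (hk : Tendsto (fun i => (cell (l i) (τ i)).1) UU atBot) {g : ℝ} (hg : 0 < g) (l0 : ℕ)
    (i0 : Idx) {η : ℝ} (hη : 0 < η) : ∀ᶠ r in UU, ∀ x ∈ SS (E := E) g (l r) (τ r),
      ∀ x' ∈ SS (E := E) g (l r) (τ r), |PP l0 i0 x - PP l0 i0 x'| ≤ η := by
  obtain ⟨a, ha⟩ := Pre_eventually (E := E) l0 i0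
  filter_upwards [hl.eventually_gt_atTop l0, hl.eventually_gt_atTop a,
    sc_small hk 1 (δ := η / (2 * g * (2 ^ a * 64))) (by positivity)] with r h1 h2 h3 x hx x' hx'
  rw [← ha _ h1]
  refine (Reg.close hx hx' h2).trans ?_
  rw [le_div_iff₀ (by positivity)] at h3
  linarith

/-- constant near late regions -/
def Flat (g : ℝ) (l τ : ℕ → ℕ) (μ : ℝ) (F : MM E → ℝ) : Prop :=
  ∃ v, ∀ᶠ r in UU, ∀ x ∈ SS g (l r) (τ r), ∀ y, dist x y < μ → F y = v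

omit [InnerProductSpace ℝ E] [CompleteSpace E] [SeparableSpace E] in
theorem flat_lip {F φ : MM E → ℝ} {S : Set (MM E)} {μ v ε : ℝ} (hμ : 0 < μ) (hε : Sg ε)
    (hφ : Lip 1 φ) (h : ∀ x ∈ S, ∀ y, dist x y < μ → F y = v) :
    ∀ x ∈ S, ∀ y, dist x y < μ → |(F + ε • φ) x - (F + ε • φ) y| ≤ 1 * dist x y := by
  intro x hx y hy
  rw [Pi.add_apply, Pi.add_apply, h x hx y hy, h x hx x (by simpa using hμ),
    add_sub_add_left_eq_sub]
  simpa [hε.abs] using hφ.smul ε x y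

theorem plainB {z : ℕ → YY E} {g : ℝ} {l τ : ℕ → ℕ} {φ : ℕ → MM E → ℝ} {c M M' μ : ℝ}
    (hk : Tendsto (fun i => (cell (l i) (τ i)).1) UU atBot)
    (h : ∀ᶠ i in UU, Tag g (l i) (τ i) (φ i) ∧ c ≤ |hat (φ i) (z i)|) {F : MM E → ℝ}
    (h1 : Lip M' F) (h2 : M' < M) (h3 : 1 < M) (hμ : 0 < μ) (h4 : Flat (g + 3) l τ μ F)
    (y : YY E) : ∃ M'' < M, ∀ᶠ i in UU, ∃ ε ε', Sg ε ∧ Sg ε' ∧ Lip M'' (F + ε • φ i) ∧
      c ≤ hat (ε • φ i) (y + ε' • z i) := by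
  obtain ⟨δ, hδ, M'', h5, h6⟩ := amp_glue h1 h2 h3 hμ
  obtain ⟨v, hv⟩ := h4
  refine ⟨M'', h5, ?_⟩
  filter_upwards [h, hv, sc_small hk g hδ] with i ⟨ht, h7⟩ h8 h9
  obtain ⟨ε, ε', h10, h11, h12⟩ := signs (hat (φ i) y) h7
  refine ⟨ε, ε', h10, h11, h6 _ (SS (g + 3) (l i) (τ i)) (fun x hx => SS_mono (by linarith)
    (ht.supp x (right_ne_zero_of_mul hx))) (fun x => ?_) (flat_lip hμ h10 ht.el.lip h8), ?_⟩
  · rw [Pi.smul_apply, smul_eq_mul, abs_mul, h10.abs, one_mul]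
    exact (ht.amp x).trans h9
  · rw [hat_smul (Comb.el ht.el), map_add, map_smul, smul_eq_mul]
    linarith

theorem Bd.typeBa {z : ℕ → YY E} {K : ℝ} (hK : Bd z K) {g : ℝ} {l τ : ℕ → ℕ}
    {φ : ℕ → MM E → ℝ} {c : ℝ} (hc : 0 < c)
    (h : ∀ᶠ i in UU, Tag g (l i) (τ i) (φ i) ∧ c ≤ |hat (φ i) (z i)|)
    (hk : Tendsto (fun i => (cell (l i) (τ i)).1) UU atBot)
    (hf : ∀ᶠ i in UU, ∃ μ > 0, ∀ᶠ r in UU, ∀ x ∈ SS (E := E) (g + 3) (l r) (τ r), ∀ y,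
      dist x y < μ → y ∉ SS g (l i) (τ i)) : False := by
  refine hK.generic (fun F => (∃ M' < 2, Lip M' F) ∧ ∃ μ > 0, Flat (g + 3) l τ μ F) (M := 2) hc
    one_pos ⟨⟨0, two_pos, fun x y => by simp⟩, 1, one_pos, 0, Eventually.of_forall
      fun _ _ _ _ _ => rfl⟩ (fun F ⟨⟨_, h1, h2⟩, _⟩ => h2.mono h1.le)
    fun F y ⟨⟨M', h1, h2⟩, μ, hμ, h3⟩ => ?_
  obtain ⟨M'', h4, h5⟩ := plainB hk h h2 h1 one_lt_two hμ h3 y
  obtain ⟨v, hv⟩ := h3
  filter_upwards [h, h5, hf] with i ⟨ht, _⟩ ⟨ε, ε', h6, h7, h8, h9⟩ ⟨μ', hμ', h10⟩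
  refine ⟨_, ε', h7, Comb.sg ht.el h6, ⟨⟨M'', h4, h8⟩, min μ μ', lt_min hμ hμ', v, ?_⟩, h9⟩
  filter_upwards [hv, h10] with r h11 h12 x hx y hy
  rw [Pi.add_apply, h11 x hx y (hy.trans_le (min_le_left _ _)), Pi.smul_apply,
    not_not.1 (mt (ht.supp y) (h12 x hx y (hy.trans_le (min_le_right _ _)))), smul_zero, add_zero]

theorem grid {F : MM E → ℝ} (hF : Hs F) (p : ℕ → MM E) {A : ℝ} (hA : 0 < A) :
    ∃ n : ℤ, ∀ᶠ r in UU, |F (p r) - n * (A / 2)| ≤ A / 2 := by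
  obtain ⟨B, hB⟩ := hF.bdd
  have h2 := half_pos hA
  obtain ⟨n, hn⟩ := fin_const (f := fun r => ⌊F (p r) / (A / 2)⌋)
    (Set.finite_Icc ⌊-B / (A / 2)⌋ ⌊B / (A / 2)⌋) (Eventually.of_forall fun r =>
      ⟨Int.floor_mono (div_le_div_of_nonneg_right (abs_le.1 (hB _)).1 h2.le),
        Int.floor_mono (div_le_div_of_nonneg_right (abs_le.1 (hB _)).2 h2.le)⟩)
  refine ⟨n, hn.mono fun r hr => ?_⟩
  obtain ⟨h3, h4⟩ := Int.floor_eq_iff.1 hr
  rw [le_div_iff₀ h2] at h3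
  rw [div_lt_iff₀ h2] at h4
  exact abs_le.2 ⟨by linarith, by linarith⟩

theorem Bd.typeBb {z : ℕ → YY E} {K : ℝ} (hK : Bd z K) {g : ℕ} {l τ : ℕ → ℕ}
    {φ : ℕ → MM E → ℝ} {c : ℝ} (hc : 0 < c) (hl : Tendsto l UU atTop)
    (h : ∀ᶠ i in UU, Tag g (l i) (τ i) (φ i) ∧ c ≤ |hat (φ i) (z i)|)
    (hk : Tendsto (fun i => (cell (l i) (τ i)).1) UU atBot) {p : ℕ → MM E}
    (hp : ∀ᶠ r in UU, p r ∈ SS (g + 3) (l r) (τ r))
    (hn : ∀ᶠ i in UU, ∀ᶠ r in UU, SS (E := E) (g + 3) (l r) (τ r) ⊆ SS (g + 1) (l i) (τ i)) :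
    False := by
  obtain ⟨C, hC⟩ := exists_nat_ge (sc (2 * ((g : ℝ) + 3)))
  have hC0 : (0 : ℝ) ≤ C := C.cast_nonneg
  obtain ⟨D, hD⟩ := corr_avail (E := E) (g + 3) C (M := C + 4) (by positivity)
  push_cast at hD
  refine hK.generic (fun F => Hs F ∧ (∃ M' < (C : ℝ) + 4, Lip M' F) ∧
      ∃ μ > 0, Flat (g + 3) l τ μ F) (M := C + 4) (D := 1 + D) (half_pos hc) (by positivity)
    ⟨Hs.zero, ⟨0, by positivity, fun x y => by simp⟩, 1, one_pos, 0, Eventually.of_forall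
      fun _ _ _ _ _ => rfl⟩ (fun F ⟨_, ⟨_, h1, h2⟩, _⟩ => h2.mono h1.le)
    fun F y ⟨h0, ⟨M', h1, h2⟩, μ, hμ, h3⟩ => ?_
  obtain ⟨M1, h4, h5⟩ := plainB hk h h2 h1 (by linarith) hμ h3 y
  obtain ⟨v, hv⟩ := h3
  filter_upwards [h, h5] with i ⟨ht, _⟩ ⟨ε, ε', h6, h7, h8, h9⟩
  have hs := h0.sg ht h6
  have hfl := hv.mono fun r hr => flat_lip hμ h6 ht.el.lip hr
  set F1 := F + ε • φ i with hF1
  obtain ⟨δ, hδ, M2, h10, h11⟩ := amp_glue h8 h4 (show (C : ℝ) + 3 < C + 4 by linarith) hμ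
  obtain ⟨r, ⟨⟨⟨a1, a2⟩, a3⟩, a4⟩, a5⟩ := ((((hfl.and (sc_small hk (g + 3) hδ)).and hn).and
    (hl.eventually (hD F1 hs (h8.mono h4.le)))).and (hl.eventually
      (hat_late (y + ε' • z i) (ε := c / 2 / (D + 1)) (by positivity)))).exists
  set A := sc ((cell (l r) (τ r)).1 + (g + 3)) with hA
  have hA0 : 0 < A := sc_pos _
  obtain ⟨n, a6⟩ := grid hs p hA0
  obtain ⟨q, hq⟩ := a4 (τ r) n (let ⟨r', hr'⟩ := a6.exists; ⟨_, hr'.trans (by linarith)⟩)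
  rw [← hA] at hq
  have hT := trig_lip (E := E) (g + 3) (l r) (τ r)
  have b1 := h11 (corr F1 (trig (g + 3) (l r) (τ r)) A (n * (A / 2)) C) (SS (g + 3) (l r) (τ r))
    (fun x hx => by_contra fun hc => hx (corr_of_zero hA0.le (trig_zero hc)))
    (fun x => (abs_corr_le hA0.le (mul_nonneg hC0 (trig_nonneg _ _ _ x))).trans a2)
    fun x hx y hy => by
      rw [Pi.add_apply, Pi.add_apply, add_sub_add_comm]
      refine (abs_add_le _ _).trans ?_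
      linarith [a1 x hx y hy,
        corr_sub (A := A) (c := n * (A / 2)) hC0 hT zero_le_one (a1 x hx y hy)]
  have b2 : Flat (g + 3) l τ (min μ (min (sc ((cell (l r) (τ r)).1 - (g + 1)) / 2) (A / 4)))
      (F1 + corr F1 (trig (g + 3) (l r) (τ r)) A (n * (A / 2)) C) := by
    obtain ⟨i0, hi0⟩ := ht.pp
    refine ⟨n * (A / 2), ?_⟩
    filter_upwards [hv, hfl, a3, a6, hp, osc (E := E) hl hk (g := g + 3) (by positivity) (l i) i0
      (η := A / 4) (by positivity)] with s c1 c2 c3 c4 c5 c6 x hx y hy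
    obtain ⟨d1, d2, d3⟩ : dist x y < μ ∧ dist x y < _ ∧ dist x y < _ := by
      simpa only [lt_min_iff] using hy
    refine corr_of_full (by
      rw [trig_full' (SS_margin (c3 hx) d2.le) (by ring)]; exact full_le hC) ?_
    have d4 : |F1 x - F1 (p s)| ≤ A / 4 := by
      rw [hF1, Pi.add_apply, Pi.add_apply, c1 x hx x (by simpa using hμ),
        c1 _ c5 _ (by simpa using hμ), add_sub_add_left_eq_sub, Pi.smul_apply, Pi.smul_apply,
        ← smul_sub, smul_eq_mul, abs_mul, h6.abs, one_mul, hi0]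
      exact c6 x hx _ c5
    linarith [c2 x hx y d1, abs_sub_le (F1 y) (F1 x) (n * (A / 2)),
      abs_sub_le (F1 x) (F1 (p s)) (n * (A / 2)), abs_sub_comm (F1 x) (F1 y)]
  rw [hq, hF1, add_assoc] at b1 b2
  refine ⟨_, ε', h7, (Comb.sg ht.el h6).add (comb_corr _ q D), ⟨?_, ⟨M2, h10, b1⟩, _,
    lt_min hμ (lt_min (half_pos (sc_pos _)) (by positivity)), b2⟩, ?_⟩
  · rw [← add_assoc]
    exact hs.add D _ _
  · have h14 := hat_corr (p := q) (D := D) a5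
    have h16 : (D + 1) * (c / 2 / (D + 1)) = c / 2 := by field_simp
    have h17 : 0 ≤ c / 2 / (D + 1) := by positivity
    rw [hat_add (Comb.sg ht.el h6) (comb_corr _ q D)]
    linarith

theorem Bd.tagged {z : ℕ → YY E} {K : ℝ} (hK : Bd z K) {g : ℕ} {l τ : ℕ → ℕ}
    {φ : ℕ → MM E → ℝ} {c : ℝ} (hc : 0 < c) (hl : Tendsto l UU atTop)
    (h : ∀ᶠ i in UU, Tag g (l i) (τ i) (φ i) ∧ c ≤ |hat (φ i) (z i)|) : False := by
  rcases int_dich fun i => (cell (l i) (τ i)).1 with hk | hk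
  · exact hK.typeA hc hl h hk
  obtain ⟨p, hp⟩ := Eventually.choice (r := fun r x => x ∈ SS (E := E) (g + 3) (l r) (τ r))
    (h.mono fun i ⟨ht, h1⟩ => by
      by_contra! h2
      have h3 : φ i = (0 : ℝ) • φ i := by
        funext x
        simpa using not_not.1 (mt (fun hx => SS_mono (by linarith) (ht.supp x hx)) (h2 x))
      rw [h3, hat_smul (Comb.el ht.el), zero_mul, abs_zero] at h1
      linarith)
  have ho : ∀ i, ∀ᶠ r in UU, ∀ x ∈ SS (E := E) (g + 3) (l r) (τ r),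
      |trig (g + 1) (l i) (τ i) x - trig (g + 1) (l i) (τ i) (p r)| ≤
        sc ((cell (l i) (τ i)).1 - (g + 1)) / 4 := fun i => by
    filter_upwards [hp, osc (E := E) hl hk (g := g + 3) (by positivity) (l i)
      (.inr (.inl (g + 1, τ i))) (η := sc ((cell (l i) (τ i)).1 - (g + 1)) / 4)
      (by have := sc_pos ((cell (l i) (τ i)).1 - (g + 1)); positivity)] with r h1 h2 x hx
    have := h2 x hx _ h1
    rwa [PP_trig, Nat.cast_succ] at this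
  rcases UU.em fun i => ∀ᶠ r in UU, trig (g + 1) (l i) (τ i) (p r) ≤
    sc ((cell (l i) (τ i)).1 - (g + 1)) / 2 with h1 | h1
  · refine hK.typeBa hc h hk (h1.mono fun i hi => ⟨sc ((cell (l i) (τ i)).1 - (g + 1)) / 4,
      by have := sc_pos ((cell (l i) (τ i)).1 - (g + 1)); positivity, ?_⟩)
    filter_upwards [hi, ho i] with r h2 h3 x hx y hy hS
    have h4 := trig_lip (g + 1) (l i) (τ i) x y
    rw [trig_full hS] at h4
    linarith [(abs_le.1 h4).1, (abs_le.1 (h3 x hx)).2]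
  · refine hK.typeBb hc hl h hk hp (h1.mono fun i hi => ?_)
    filter_upwards [Ultrafilter.eventually_not.2 hi, ho i] with r h2 h3 x hx
    by_contra hS
    have h4 := h3 x hx
    rw [trig_zero hS] at h4
    linarith [(abs_le.1 h4).1, sc_pos ((cell (l i) (τ i)).1 - (g + 1))]

end Crest.Agent.R91
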